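import Mathlib

set_option autoImplicit false

open MeasureTheory Module
open scoped ENNReal

namespace Crest.Agent.Row211

abbrev E3 := EuclideanSpace ℝ (Fin 3)
abbrev E2 := EuclideanSpace ℝ (Fin 2)

/-- the linear map `(x, y) ↦ x • a + y • b`. -/
noncomputable def comb {V : Type*} [NormedAddCommGroup V] [InnerProductSpace ℝ V] (a b : V) :
    E2 →ₗ[ℝ] V where
  toFun x := x 0 • a + x 1 • b
  map_add' x y := by simp [add_smul]; abel
  map_smul' c x := by simp [mul_smul, smul_add]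

@[simp] lemma comb_apply {V : Type*} [NormedAddCommGroup V] [InnerProductSpace ℝ V] (a b : V)
    (x : E2) : comb a b x = x 0 • a + x 1 • b := rfl

lemma comb_normDet {V : Type*} [NormedAddCommGroup V] [InnerProductSpace ℝ V] (a b : V) :
    (comb a b).normDet = Real.sqrt (‖a‖ ^ 2 * ‖b‖ ^ 2 - inner ℝ a b ^ 2) := by
  have h := (comb a b).normDet_sq_eq_det_gram (EuclideanSpace.basisFun (Fin 2) ℝ)
  have h2 : (comb a b).normDet ^ 2 = ‖a‖ ^ 2 * ‖b‖ ^ 2 - inner ℝ a b ^ 2 := by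
    have h3 : (((comb a b).normDet ^ 2 : ℝ) : ℝ) = (Matrix.gram ℝ (fun i => (comb a b) ((EuclideanSpace.basisFun (Fin 2) ℝ) i))).det := h
    rw [h3, Matrix.det_fin_two]
    simp [Matrix.gram_apply, real_inner_comm a b]
    ring
  rw [← h2, Real.sqrt_sq (LinearMap.normDet_nonneg _)]

section areaimg
variable {V : Type*} [NormedAddCommGroup V] [InnerProductSpace ℝ V] [MeasurableSpace V]
  [BorelSpace V]

lemma area_image (a b c : V) (s : Set E2) :
    μHE[2] ((fun x : E2 => c + (x 0 • a + x 1 • b)) '' s) =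
      ENNReal.ofReal (Real.sqrt (‖a‖ ^ 2 * ‖b‖ ^ 2 - inner ℝ a b ^ 2)) * volume s := by
  have h1 : (fun x : E2 => c + (x 0 • a + x 1 • b)) '' s = (fun v => c + v) '' ((comb a b) '' s) := by
    rw [Set.image_image]; rfl
  have h2 : Isometry (fun v : V => c + v) := isometry_add_left c
  rw [h1, h2.euclideanHausdorffMeasure_image]
  have := (comb a b).euclideanHausdorffMeasure_image_eq_normDet_mul_volume s
  simp only [finrank_euclideanSpace, Fintype.card_fin] at this
  rw [this, comb_normDet]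

end areaimg


lemma mem_triangle {V : Type*} [AddCommGroup V] [Module ℝ V] (p q r x : V) :
    x ∈ convexHull ℝ ({p, q, r} : Set V) ↔
      ∃ s t : ℝ, 0 ≤ s ∧ 0 ≤ t ∧ s + t ≤ 1 ∧ x = p + (s • (q - p) + t • (r - p)) := by
  rw [convexHull_insert (by simp), convexHull_pair]
  simp only [mem_convexJoin, Set.mem_singleton_iff, exists_eq_left]
  constructor
  · rintro ⟨y, hy, hx⟩
    rw [segment_eq_image] at hy hx
    obtain ⟨θ, ⟨hθ0, hθ1⟩, rfl⟩ := hy
    obtain ⟨ρ, ⟨hρ0, hρ1⟩, rfl⟩ := hx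
    refine ⟨ρ * (1 - θ), ρ * θ, by nlinarith, by positivity, by nlinarith, ?_⟩
    simp only [smul_add, smul_sub, sub_smul, mul_smul, one_smul, mul_sub, mul_one]
    abel_nf
  · rintro ⟨s, t, hs, ht, hst, rfl⟩
    rcases eq_or_lt_of_le (add_nonneg hs ht) with h0 | h0
    · have hs0 : s = 0 := by linarith
      have ht0 : t = 0 := by linarith
      refine ⟨q, left_mem_segment _ _ _, ?_⟩
      simp [hs0, ht0, left_mem_segment]
    · refine ⟨(s / (s + t)) • q + (t / (s + t)) • r, ⟨s / (s+t), t/(s+t), by positivity, by positivity, by field_simp, rfl⟩, ⟨1 - (s+t), s + t, by linarith, h0.le, by ring, ?_⟩⟩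
      rw [smul_add, smul_smul, smul_smul]
      have h1 : (s + t) * (s / (s + t)) = s := by field_simp
      have h2 : (s + t) * (t / (s + t)) = t := by field_simp
      rw [h1, h2]
      simp only [smul_sub, sub_smul, one_smul, add_smul]
      abel

/-- the standard unit triangle -/
def uTri : Set E2 := {x | 0 ≤ x 0 ∧ 0 ≤ x 1 ∧ x 0 + x 1 ≤ 1}
/-- the unit square -/
def uSq : Set E2 := {x | (0 ≤ x 0 ∧ x 0 ≤ 1) ∧ (0 ≤ x 1 ∧ x 1 ≤ 1)}

lemma volume_uSq : volume uSq = 1 := by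
  have h : uSq = (WithLp.ofLp : E2 → (Fin 2 → ℝ)) ⁻¹' (Set.Icc 0 1) := by
    ext x
    simp only [uSq, Set.mem_ofPred_eq, Set.mem_preimage, Set.mem_Icc, Pi.le_def, Fin.forall_fin_two]
    simp
    tauto
  rw [h, (PiLp.volume_preserving_ofLp (Fin 2)).measure_preimage measurableSet_Icc.nullMeasurableSet, Real.volume_Icc_pi]
  simp

lemma measurableSet_uTri : MeasurableSet uTri := by
  apply IsClosed.measurableSet
  have : uTri = {x : E2 | 0 ≤ x 0} ∩ ({x : E2 | 0 ≤ x 1} ∩ {x : E2 | x 0 + x 1 ≤ 1}) := by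
    ext x; simp [uTri]
  rw [this]
  refine IsClosed.inter ?_ (IsClosed.inter ?_ ?_)
  · exact isClosed_le continuous_const (by fun_prop)
  · exact isClosed_le continuous_const (by fun_prop)
  · exact isClosed_le (by fun_prop) continuous_const

lemma volume_line : volume {x : E2 | x 0 + x 1 = 1} = 0 := by
  -- affine subspace
  let f : E2 →ₗ[ℝ] ℝ := ((EuclideanSpace.proj (0 : Fin 2) : E2 →L[ℝ] ℝ) + (EuclideanSpace.proj (1 : Fin 2) : E2 →L[ℝ] ℝ)).toLinearMap
  have hset : {x : E2 | x 0 + x 1 = 1} = (AffineSubspace.mk' (!₂[1, 0] : E2) (LinearMap.ker f) : Set E2) := by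
    ext x
    simp only [Set.mem_ofPred_eq, SetLike.mem_coe, AffineSubspace.mem_mk', vsub_eq_sub, LinearMap.mem_ker, f]
    simp
    constructor <;> intro h <;> linarith
  rw [hset]
  apply Measure.addHaar_affineSubspace
  intro htop
  have h0 : (0 : E2) ∈ (AffineSubspace.mk' (!₂[1, 0] : E2) (LinearMap.ker f)) := by
    rw [htop]; trivial
  have h1 : (0 : E2) ∈ {x : E2 | x 0 + x 1 = 1} := by rw [hset]; exact h0
  simp at h1

lemma volume_uTri : volume uTri = 2⁻¹ := by
  -- reflection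
  let g : E2 → E2 := fun x => (!₂[1, 1] : E2) - x
  have hg : MeasurePreserving g volume volume := by
    exact Measure.measurePreserving_sub_left volume _
  have h1 : volume (g ⁻¹' uTri) = volume uTri := hg.measure_preimage measurableSet_uTri.nullMeasurableSet
  have hunion : uSq = uTri ∪ (g ⁻¹' uTri) := by
    ext x
    simp only [uSq, uTri, g, Set.mem_ofPred_eq, Set.mem_union, Set.mem_preimage]
    simp
    constructor
    · rintro ⟨⟨h1, h2⟩, h3, h4⟩
      by_cases h : x 0 + x 1 ≤ 1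
      · left; exact ⟨h1, h3, h⟩
      · right; push Not at h; exact ⟨h2, h4, by linarith⟩
    · rintro (⟨h1, h2, h3⟩ | ⟨h1, h2, h3⟩)
      · exact ⟨⟨h1, by linarith⟩, h2, by linarith⟩
      · exact ⟨⟨by linarith, h1⟩, by linarith, h2⟩
  have hdisj : AEDisjoint volume uTri (g ⁻¹' uTri) := by
    refine measure_mono_null ?_ volume_line
    intro x
    simp only [uTri, g, Set.mem_ofPred_eq, Set.mem_inter_iff, Set.mem_preimage]
    simp
    intro h1 h2 h3 h4 h5 h6
    linarith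
  have h2 : volume uSq = volume uTri + volume uTri := by
    rw [hunion, measure_union₀ (hg.measurable measurableSet_uTri).nullMeasurableSet hdisj, h1]
  rw [volume_uSq] at h2
  have h3 : (2 : ℝ≥0∞) * volume uTri = 1 := by rw [two_mul]; exact h2.symm
  rw [← ENNReal.eq_inv_of_mul_eq_one_left (a := volume uTri) (b := 2)]
  rw [mul_comm]; exact h3



section general
variable {V : Type*} [NormedAddCommGroup V] [InnerProductSpace ℝ V] [MeasurableSpace V]
  [BorelSpace V]

/-- Area of a triangle. -/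
theorem area_triangle (p q r : V) :
    μHE[2] (convexHull ℝ ({p, q, r} : Set V)) =
      ENNReal.ofReal (Real.sqrt (‖q - p‖ ^ 2 * ‖r - p‖ ^ 2 - inner ℝ (q - p) (r - p) ^ 2) / 2) := by
  have h : convexHull ℝ ({p, q, r} : Set V) = (fun x : E2 => p + (x 0 • (q - p) + x 1 • (r - p))) '' uTri := by
    ext x
    rw [mem_triangle]
    constructor
    · rintro ⟨s, t, hs, ht, hst, rfl⟩
      exact ⟨!₂[s, t], by simp [uTri, hs, ht, hst], by simp⟩
    · rintro ⟨y, ⟨h1, h2, h3⟩, rfl⟩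
      exact ⟨y 0, y 1, h1, h2, h3, rfl⟩
  rw [h, area_image, volume_uTri, ENNReal.ofReal_div_of_pos (by norm_num), ENNReal.div_eq_inv_mul, mul_comm]
  simp

/-- Area of a parallelogram. -/
theorem area_parallelogram (c a b : V) :
    μHE[2] {x : V | ∃ s ∈ Set.Icc (0 : ℝ) 1, ∃ t ∈ Set.Icc (0 : ℝ) 1, x = c + s • a + t • b} =
      ENNReal.ofReal (Real.sqrt (‖a‖ ^ 2 * ‖b‖ ^ 2 - inner ℝ a b ^ 2)) := by
  have h : {x : V | ∃ s ∈ Set.Icc (0 : ℝ) 1, ∃ t ∈ Set.Icc (0 : ℝ) 1, x = c + s • a + t • b}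
      = (fun x : E2 => c + (x 0 • a + x 1 • b)) '' uSq := by
    ext x
    constructor
    · rintro ⟨s, hs, t, ht, rfl⟩
      exact ⟨!₂[s, t], by simp [uSq, hs.1, hs.2, ht.1, ht.2], by simp [add_assoc]⟩
    · rintro ⟨y, ⟨⟨h1, h2⟩, h3, h4⟩, rfl⟩
      exact ⟨y 0, ⟨h1, h2⟩, y 1, ⟨h3, h4⟩, by simp [add_assoc]⟩
  rw [h, area_image, volume_uSq, mul_one]

end general

/-- orthogonal projection along `u` (for unit `u`). -/
noncomputable def proj (u x : E3) : E3 := x - inner ℝ x u • u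

/-- 3 by 3 determinant. -/
def det3 (a b c : E3) : ℝ :=
  a 0 * (b 1 * c 2 - b 2 * c 1) - a 1 * (b 0 * c 2 - b 2 * c 0) + a 2 * (b 0 * c 1 - b 1 * c 0)

lemma inner3 (a b : E3) : inner ℝ a b = a 0 * b 0 + a 1 * b 1 + a 2 * b 2 := by
  simp [PiLp.inner_apply, Fin.sum_univ_three, mul_comm]

lemma normsq3 (a : E3) : ‖a‖ ^ 2 = a 0 ^ 2 + a 1 ^ 2 + a 2 ^ 2 := by
  rw [← real_inner_self_eq_norm_sq, inner3]; ring

lemma proj_sub (u x y : E3) : proj u x - proj u y = proj u (x - y) := by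
  simp only [proj, inner_sub_left, sub_smul]; abel

lemma proj_add (u x y : E3) : proj u (x + y) = proj u x + proj u y := by
  simp only [proj, inner_add_left, add_smul]; abel

lemma proj_smul (u x : E3) (c : ℝ) : proj u (c • x) = c • proj u x := by
  simp only [proj, inner_smul_left, smul_sub, smul_smul]; simp

lemma proj_self {u : E3} (hu : ‖u‖ = 1) : proj u u = 0 := by
  simp [proj, hu]

lemma inner_proj {u : E3} (hu : ‖u‖ = 1) (x : E3) : inner ℝ (proj u x) u = 0 := by
  simp [proj, inner_sub_left, inner_smul_left, hu]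

lemma gram_proj {u : E3} (hu : ‖u‖ = 1) (a b : E3) :
    ‖proj u a‖ ^ 2 * ‖proj u b‖ ^ 2 - inner ℝ (proj u a) (proj u b) ^ 2 = det3 a b u ^ 2 := by
  have h := normsq3 u
  rw [hu] at h
  have h1 : u 0 ^ 2 = 1 - u 1 ^ 2 - u 2 ^ 2 := by linarith
  have e1 : ‖proj u a‖ ^ 2 = ‖a‖ ^ 2 - inner ℝ a u ^ 2 := by
    rw [proj, ← real_inner_self_eq_norm_sq, inner_sub_left, inner_sub_right, inner_sub_right,
      inner_smul_left, inner_smul_left, inner_smul_right, inner_smul_right, real_inner_self_eq_norm_sq,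
      real_inner_self_eq_norm_sq, hu, real_inner_comm a u]
    simp; ring
  have e2 : ‖proj u b‖ ^ 2 = ‖b‖ ^ 2 - inner ℝ b u ^ 2 := by
    rw [proj, ← real_inner_self_eq_norm_sq, inner_sub_left, inner_sub_right, inner_sub_right,
      inner_smul_left, inner_smul_left, inner_smul_right, inner_smul_right, real_inner_self_eq_norm_sq,
      real_inner_self_eq_norm_sq, hu, real_inner_comm b u]
    simp; ring
  have e3 : inner ℝ (proj u a) (proj u b) = inner ℝ a b - inner ℝ a u * inner ℝ b u := by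
    rw [proj, proj, inner_sub_left, inner_sub_right, inner_sub_right,
      inner_smul_left, inner_smul_left, inner_smul_right, inner_smul_right,
      real_inner_self_eq_norm_sq, hu, real_inner_comm b u]
    simp
    ring
  rw [e1, e2, e3, normsq3, normsq3, inner3, inner3, inner3, det3]
  have h2 : u 0 ^ 2 + u 1 ^ 2 + u 2 ^ 2 = 1 := by linarith
  generalize u 0 = x at *
  generalize u 1 = y at *
  generalize u 2 = z at *
  have hz : z ^ 2 = 1 - x ^ 2 - y ^ 2 := by linarith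
  have key : ∀ a0 a1 a2 b0 b1 b2 : ℝ,
    (a0 ^ 2 + a1 ^ 2 + a2 ^ 2 - (a0 * x + a1 * y + a2 * z) ^ 2) *
        (b0 ^ 2 + b1 ^ 2 + b2 ^ 2 - (b0 * x + b1 * y + b2 * z) ^ 2) -
      (a0 * b0 + a1 * b1 + a2 * b2 - (a0 * x + a1 * y + a2 * z) * (b0 * x + b1 * y + b2 * z)) ^ 2 =
    (a0 * (b1 * z - b2 * y) - a1 * (b0 * z - b2 * x) + a2 * (b0 * y - b1 * x)) ^ 2 := by
    intro a0 a1 a2 b0 b1 b2
    -- Gram determinant identity (3x3): G(a,b,u) = det^2, with |u|=1
    have : (a0 ^ 2 + a1 ^ 2 + a2 ^ 2) * (b0 ^ 2 + b1 ^ 2 + b2 ^ 2) * (x^2+y^2+z^2)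
        + 2 * (a0 * b0 + a1 * b1 + a2 * b2) * (a0 * x + a1 * y + a2 * z) * (b0 * x + b1 * y + b2 * z)
        - (a0 * b0 + a1 * b1 + a2 * b2) ^ 2 * (x^2+y^2+z^2)
        - (a0 ^ 2 + a1 ^ 2 + a2 ^ 2) * (b0 * x + b1 * y + b2 * z) ^ 2
        - (b0 ^ 2 + b1 ^ 2 + b2 ^ 2) * (a0 * x + a1 * y + a2 * z) ^ 2 =
      (a0 * (b1 * z - b2 * y) - a1 * (b0 * z - b2 * x) + a2 * (b0 * y - b1 * x)) ^ 2 := by ring
    rw [h2] at this
    rw [← this]; ring
  exact key _ _ _ _ _ _

/-- Area of the projection of a triangle along a unit vector. -/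
theorem area_proj_triangle {u : E3} (hu : ‖u‖ = 1) (p q r : E3) :
    μHE[2] (convexHull ℝ ({proj u p, proj u q, proj u r} : Set E3)) =
      ENNReal.ofReal (|det3 (q - p) (r - p) u| / 2) := by
  rw [area_triangle, proj_sub, proj_sub, gram_proj hu, Real.sqrt_sq_eq_abs]

theorem area_proj_parallelogram {u : E3} (hu : ‖u‖ = 1) (c a b : E3) :
    μHE[2] {x : E3 | ∃ s ∈ Set.Icc (0 : ℝ) 1, ∃ t ∈ Set.Icc (0 : ℝ) 1,
      x = proj u c + s • proj u a + t • proj u b} =
      ENNReal.ofReal (|det3 a b u|) := by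
  rw [area_parallelogram, gram_proj hu, Real.sqrt_sq_eq_abs]

/-- The linear map version of `proj`. -/
noncomputable def projL (u : E3) : E3 →ₗ[ℝ] E3 where
  toFun := proj u
  map_add' := proj_add u
  map_smul' c x := by simp [proj_smul]

lemma proj_image_convexHull (u : E3) (s : Set E3) :
    (fun y => proj u y) '' convexHull ℝ s = convexHull ℝ ((fun y => proj u y) '' s) := by
  exact (projL u).image_convexHull s

/-- The infinite cylinder over the triangle `p q r` in direction `d`. -/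
def cylTri (d p q r : E3) : Set E3 := {x | ∃ b ∈ convexHull ℝ ({p, q, r} : Set E3), ∃ t : ℝ, x = b + t • d}

lemma cylTri_proj {d u : E3} {c : ℝ} (hc : c ≠ 0) (hd : d = c • u) (p q r : E3) :
    cylTri d p q r = {x | ∃ b ∈ convexHull ℝ ({proj u p, proj u q, proj u r} : Set E3), ∃ t : ℝ, x = b + t • u} := by
  have himg : convexHull ℝ ({proj u p, proj u q, proj u r} : Set E3) = (fun y => proj u y) '' convexHull ℝ ({p, q, r} : Set E3) := by
    rw [proj_image_convexHull]
    congr 1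
    simp [Set.image_insert_eq]
  ext x
  simp only [cylTri, Set.mem_ofPred_eq]
  rw [himg]
  constructor
  · rintro ⟨b, hb, t, rfl⟩
    refine ⟨proj u b, ⟨b, hb, rfl⟩, t * c + inner ℝ b u, ?_⟩
    rw [hd, proj, add_smul, mul_smul]; abel
  · rintro ⟨_, ⟨b, hb, rfl⟩, t, rfl⟩
    refine ⟨b, hb, (t - inner ℝ b u) / c, ?_⟩
    rw [hd, smul_smul, div_mul_cancel₀ _ hc, sub_smul]
    simp only [proj]; abel

end Crest.Agent.Row211
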