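import Crest.Agent.Row211.FanArea
import Crest.Agent.Row211.Area

set_option autoImplicit false

open MeasureTheory Module
open scoped ENNReal

namespace Crest.Agent.Row211

/-- the standard regular tetrahedron -/
noncomputable def K0 : Set E3 :=
  convexHull ℝ {!₂[1, 0, 0], !₂[-1, 0, 0], !₂[0, 1, Real.sqrt 2], !₂[0, -1, Real.sqrt 2]}

lemma K0_subset : K0 ⊆ {p : E3 | |2 * p 1| ≤ 1 + (Real.sqrt 2 * p 2 - 1) ∧ |2 * p 0| ≤ 1 - (Real.sqrt 2 * p 2 - 1)} := by
  have h2 : Real.sqrt 2 * Real.sqrt 2 = 2 := Real.mul_self_sqrt (by norm_num)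
  refine convexHull_min ?_ ?_
  · rintro p (rfl | rfl | rfl | rfl) <;> simp [h2] <;> norm_num
  · intro x hx y hy a b ha hb hab
    simp only [Set.mem_ofPred_eq, abs_le] at hx hy ⊢
    simp only [PiLp.add_apply, PiLp.smul_apply, smul_eq_mul]
    obtain ⟨⟨h1, h2⟩, h3, h4⟩ := hx
    obtain ⟨⟨k1, k2⟩, k3, k4⟩ := hy
    have e1 : a = 1 - b := by linarith
    refine ⟨⟨?_, ?_⟩, ?_, ?_⟩
    · nlinarith [mul_le_mul_of_nonneg_left h1 ha, mul_le_mul_of_nonneg_left k1 hb]
    · nlinarith [mul_le_mul_of_nonneg_left h2 ha, mul_le_mul_of_nonneg_left k2 hb]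
    · nlinarith [mul_le_mul_of_nonneg_left h3 ha, mul_le_mul_of_nonneg_left k3 hb]
    · nlinarith [mul_le_mul_of_nonneg_left h4 ha, mul_le_mul_of_nonneg_left k4 hb]

noncomputable def dU (i : ℕ) : E3 := !₂[-(1/20 * PP (cc i)), 1, Real.sqrt 2 * (1/20 * cc i)]
noncomputable def pU : E3 := !₂[0, 0, Real.sqrt 2]
noncomputable def qU (i : ℕ) : E3 := !₂[tt i * RR (cc i) / 2, 0, (2 - RR (cc i)) / Real.sqrt 2]
noncomputable def rU (i : ℕ) : E3 := !₂[tt (i+1) * RR (cc i) / 2, 0, (2 - RR (cc i)) / Real.sqrt 2]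

noncomputable def dL (i : ℕ) : E3 := !₂[-1, -(1/20 * PP (cc i)), -(Real.sqrt 2 * (1/20 * cc i))]
noncomputable def pL : E3 := !₂[0, 0, 0]
noncomputable def qL (i : ℕ) : E3 := !₂[0, tt i * RR (cc i) / 2, RR (cc i) / Real.sqrt 2]
noncomputable def rL (i : ℕ) : E3 := !₂[0, tt (i+1) * RR (cc i) / 2, RR (cc i) / Real.sqrt 2]

lemma RR_pos (c : ℝ) : 0 < RR c := by simp only [RR, dl]; positivity

lemma tt_diff (i : ℕ) : tt (i+1) - tt i = 1/50000 := by rw [tt_succ, tt_eq]; ring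

lemma mem_upper (P : E3) (i : ℕ) (x y z : ℝ) (hx : x = 2 * P 1) (hy : y = 2 * P 0)
    (hz : z = Real.sqrt 2 * P 2 - 1)
    (h1 : 1 - z + x * (1/20 * cc i) ≤ RR (cc i))
    (h2 : tt i * (1 - z + x * (1/20 * cc i)) ≤ y + x * (1/20 * PP (cc i)))
    (h3 : y + x * (1/20 * PP (cc i)) ≤ tt (i + 1) * (1 - z + x * (1/20 * cc i))) :
    P ∈ cylTri (dU i) pU (qU i) (rU i) := by
  have hR := RR_pos (cc i)
  have hs2 : Real.sqrt 2 ≠ 0 := by positivity
  have hsq : Real.sqrt 2 * Real.sqrt 2 = 2 := Real.mul_self_sqrt (by norm_num)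
  have htd := tt_diff i
  set D := 1 - z + x * (1/20 * cc i) with hD
  set Y := y + x * (1/20 * PP (cc i)) with hY
  set R := RR (cc i) with hRdef
  have hP1 : P 1 = x / 2 := by linarith
  have hP0 : P 0 = y / 2 := by linarith
  have hP2 : P 2 = (z + 1) / Real.sqrt 2 := by
    rw [eq_div_iff hs2]; linarith
  refine ⟨P - (x / 2) • dU i, ?_, x / 2, by simp⟩
  rw [mem_triangle]
  refine ⟨(tt (i+1) * D - Y) * 50000 / R, (Y - tt i * D) * 50000 / R, ?_, ?_, ?_, ?_⟩
  · apply div_nonneg _ hR.le; linarith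
  · apply div_nonneg _ hR.le; linarith
  · rw [← add_div, div_le_one hR]
    have : (tt (i+1) * D - Y) * 50000 + (Y - tt i * D) * 50000 = (tt (i+1) - tt i) * D * 50000 := by ring
    rw [this, htd]; linarith
  · ext k
    fin_cases k
    · simp [dU, pU, qU, rU, hP0]
      rw [← hRdef]
      field_simp
      have e : tt (i+1) = tt i + 1/50000 := by linarith
      rw [e, hY]; ring
    · simp [dU, pU, qU, rU, hP1]
    · simp [dU, pU, qU, rU, hP2]
      rw [← hRdef]
      field_simp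
      have e : tt (i+1) = tt i + 1/50000 := by linarith
      rw [e]
      have e2 : Real.sqrt 2 ^ 2 = 2 := by rw [sq]; exact hsq
      rw [e2, hD]
      ring

lemma mem_lower (P : E3) (i : ℕ) (x y z : ℝ) (hx : x = 2 * P 1) (hy : y = 2 * P 0)
    (hz : z = Real.sqrt 2 * P 2 - 1)
    (h1 : 1 + z - y * (1/20 * cc i) ≤ RR (cc i))
    (h2 : tt i * (1 + z - y * (1/20 * cc i)) ≤ x - y * (1/20 * PP (cc i)))
    (h3 : x - y * (1/20 * PP (cc i)) ≤ tt (i + 1) * (1 + z - y * (1/20 * cc i))) :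
    P ∈ cylTri (dL i) pL (qL i) (rL i) := by
  have hR := RR_pos (cc i)
  have hs2 : Real.sqrt 2 ≠ 0 := by positivity
  have hsq : Real.sqrt 2 * Real.sqrt 2 = 2 := Real.mul_self_sqrt (by norm_num)
  have htd := tt_diff i
  set D := 1 + z - y * (1/20 * cc i) with hD
  set Y := x - y * (1/20 * PP (cc i)) with hY
  set R := RR (cc i) with hRdef
  have hP1 : P 1 = x / 2 := by linarith
  have hP0 : P 0 = y / 2 := by linarith
  have hP2 : P 2 = (z + 1) / Real.sqrt 2 := by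
    rw [eq_div_iff hs2]; linarith
  refine ⟨P - (-(y / 2)) • dL i, ?_, -(y / 2), by simp⟩
  rw [mem_triangle]
  refine ⟨(tt (i+1) * D - Y) * 50000 / R, (Y - tt i * D) * 50000 / R, ?_, ?_, ?_, ?_⟩
  · apply div_nonneg _ hR.le; linarith
  · apply div_nonneg _ hR.le; linarith
  · rw [← add_div, div_le_one hR]
    have : (tt (i+1) * D - Y) * 50000 + (Y - tt i * D) * 50000 = (tt (i+1) - tt i) * D * 50000 := by ring
    rw [this, htd]; linarith
  · ext k
    fin_cases k
    · simp [dL, pL, qL, rL, hP0]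
    · simp [dL, pL, qL, rL, hP1]
      rw [← hRdef]
      field_simp
      have e : tt (i+1) = tt i + 1/50000 := by linarith
      rw [e, hY]; ring
    · simp [dL, pL, qL, rL, hP2]
      rw [← hRdef]
      field_simp
      have e : tt (i+1) = tt i + 1/50000 := by linarith
      rw [e]
      have e2 : Real.sqrt 2 ^ 2 = 2 := by rw [sq]; exact hsq
      rw [e2, hD]
      ring

end Crest.Agent.Row211
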