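import Crest.Agent.Row211.Cover

set_option autoImplicit false

open MeasureTheory Module
open scoped ENNReal

namespace Crest.Agent.Row211

lemma norm_dU (i : ℕ) : ‖dU i‖ = dlen (cc i) := by
  rw [EuclideanSpace.norm_eq, dlen]
  congr 1
  have hsq : Real.sqrt 2 ^ 2 = 2 := Real.sq_sqrt (by norm_num)
  simp [Fin.sum_univ_three, dU, mul_pow, hsq]
  ring

lemma norm_dL (i : ℕ) : ‖dL i‖ = dlen (cc i) := by
  rw [EuclideanSpace.norm_eq, dlen]
  congr 1
  have hsq : Real.sqrt 2 ^ 2 = 2 := Real.sq_sqrt (by norm_num)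
  simp [Fin.sum_univ_three, dL, mul_pow, hsq]

lemma det_U (i : ℕ) : |det3 (qU i - pU) (rU i - pU) (dU i)| / 2 = RR (cc i) ^ 2 * (1/100000) / Real.sqrt 2 / 2 := by
  have hs2 : Real.sqrt 2 ≠ 0 := by positivity
  have hsq : Real.sqrt 2 ^ 2 = 2 := Real.sq_sqrt (by norm_num)
  have e : tt (i+1) = tt i + 1/50000 := by linarith [tt_diff i]
  have h : det3 (qU i - pU) (rU i - pU) (dU i) = - (RR (cc i) ^ 2 * (1/100000) / Real.sqrt 2) := by
    simp only [det3, qU, rU, pU, dU]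
    simp
    rw [e]
    field_simp
    rw [hsq]
    ring
  rw [h, abs_neg, abs_of_nonneg]
  have := RR_pos (cc i)
  positivity

lemma det_L (i : ℕ) : |det3 (qL i - pL) (rL i - pL) (dL i)| / 2 = RR (cc i) ^ 2 * (1/100000) / Real.sqrt 2 / 2 := by
  have hs2 : Real.sqrt 2 ≠ 0 := by positivity
  have hsq : Real.sqrt 2 ^ 2 = 2 := Real.sq_sqrt (by norm_num)
  have e : tt (i+1) = tt i + 1/50000 := by linarith [tt_diff i]
  have h : det3 (qL i - pL) (rL i - pL) (dL i) = (RR (cc i) ^ 2 * (1/100000) / Real.sqrt 2) := by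
    simp only [det3, qL, rL, pL, dL]
    simp
    rw [e]
    field_simp
    ring
  rw [h, abs_of_nonneg]
  have := RR_pos (cc i)
  positivity

/-- normalised direction -/
noncomputable def nrm (d : E3) : E3 := ‖d‖⁻¹ • d

lemma norm_nrm {d : E3} (hd : d ≠ 0) : ‖nrm d‖ = 1 := by
  rw [nrm, norm_smul, norm_inv, norm_norm, inv_mul_cancel₀ (norm_ne_zero_iff.2 hd)]

lemma nrm_spec {d : E3} (hd : d ≠ 0) : d = ‖d‖ • nrm d := by
  rw [nrm, smul_smul, mul_inv_cancel₀ (norm_ne_zero_iff.2 hd), one_smul]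

lemma det3_smul (a b d : E3) (c : ℝ) : det3 a b (c • d) = c * det3 a b d := by
  simp only [det3, PiLp.smul_apply, smul_eq_mul]; ring

/-- general prism family -/
theorem area_nrm {d : E3} (hd : d ≠ 0) (p q r : E3) :
    (μHE[2] (convexHull ℝ ({proj (nrm d) p, proj (nrm d) q, proj (nrm d) r} : Set E3))).toReal =
      |det3 (q - p) (r - p) d| / 2 / ‖d‖ := by
  rw [area_proj_triangle (norm_nrm hd), nrm, det3_smul, abs_mul, ENNReal.toReal_ofReal (by positivity),
    abs_inv, abs_norm]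
  field_simp

lemma dU_ne (i : ℕ) : dU i ≠ 0 := by
  intro h
  have := congrArg (fun v : E3 => v 1) h
  simp [dU] at this

lemma dL_ne (i : ℕ) : dL i ≠ 0 := by
  intro h
  have := congrArg (fun v : E3 => v 0) h
  simp [dL] at this

abbrev II := Fin 100000 ⊕ Fin 100000

noncomputable def dF : II → E3 := Sum.elim (fun i => dU i) (fun i => dL i)
noncomputable def pF : II → E3 := Sum.elim (fun _ => pU) (fun _ => pL)
noncomputable def qF : II → E3 := Sum.elim (fun i => qU i) (fun i => qL i)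
noncomputable def rF : II → E3 := Sum.elim (fun i => rU i) (fun i => rL i)

noncomputable def uC (i : II) : E3 := nrm (dF i)
noncomputable def pC (i : II) : E3 := proj (uC i) (pF i)
noncomputable def qC (i : II) : E3 := proj (uC i) (qF i)
noncomputable def rC (i : II) : E3 := proj (uC i) (rF i)

lemma dF_ne (i : II) : dF i ≠ 0 := by
  rcases i with i | i
  · exact dU_ne i
  · exact dL_ne i

lemma norm_uC (i : II) : ‖uC i‖ = 1 := norm_nrm (dF_ne i)

lemma cover_C : K0 ⊆ ⋃ i : II, {x : E3 | ∃ b ∈ convexHull ℝ {pC i, qC i, rC i}, ∃ t : ℝ, x = b + t • uC i} := by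
  intro P hP
  obtain ⟨h1, h2⟩ := K0_subset hP
  rw [Set.mem_iUnion]
  have key : ∀ i : II, P ∈ cylTri (dF i) (pF i) (qF i) (rF i) →
      ∃ i : II, P ∈ {x : E3 | ∃ b ∈ convexHull ℝ {pC i, qC i, rC i}, ∃ t : ℝ, x = b + t • uC i} := by
    intro i hi
    refine ⟨i, ?_⟩
    rw [cylTri_proj (norm_ne_zero_iff.2 (dF_ne i)) (nrm_spec (dF_ne i))] at hi
    exact hi
  rcases cover_real _ _ _ h1 h2 with ⟨i, hi, -, k1, k2, k3⟩ | ⟨i, hi, -, k1, k2, k3⟩
  · exact key (Sum.inl ⟨i, hi⟩) (mem_upper P i _ _ _ rfl rfl rfl k1 k2 k3)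
  · exact key (Sum.inr ⟨i, hi⟩) (mem_lower P i _ _ _ rfl rfl rfl k1 k2 k3)

lemma area_C (i : II) : (μHE[2] (convexHull ℝ ({pC i, qC i, rC i} : Set E3))).toReal =
    |det3 (qF i - pF i) (rF i - pF i) (dF i)| / 2 / ‖dF i‖ := area_nrm (dF_ne i) _ _ _

lemma total_area : ∑ i : II, (μHE[2] (convexHull ℝ ({pC i, qC i, rC i} : Set E3))).toReal ≤
    Real.sqrt 2 * (1/2 - 1/40000) := by
  have hs2 : Real.sqrt 2 ≠ 0 := by positivity
  have hs2' : 0 < Real.sqrt 2 := by positivity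
  have hsq : Real.sqrt 2 ^ 2 = 2 := Real.sq_sqrt (by norm_num)
  simp only [area_C]
  rw [Fintype.sum_sum_type]
  simp only [dF, pF, qF, rF, Sum.elim_inl, Sum.elim_inr, det_U, det_L, norm_dU, norm_dL]
  rw [Fin.sum_univ_eq_sum_range (fun i => RR (cc i) ^ 2 * (1/100000) / Real.sqrt 2 / 2 / dlen (cc i)) 100000]
  have h := sum_bound
  have e : ∑ i ∈ Finset.range 100000, RR (cc i) ^ 2 * (1/100000) / Real.sqrt 2 / 2 / dlen (cc i) =
      (1/200000) / Real.sqrt 2 * ∑ i ∈ Finset.range 100000, RR (cc i) ^ 2 / dlen (cc i) := by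
    rw [Finset.mul_sum]
    apply Finset.sum_congr rfl
    intro i _
    ring
  rw [e]
  have h2 : (1/200000) / Real.sqrt 2 * ∑ i ∈ Finset.range 100000, RR (cc i) ^ 2 / dlen (cc i) ≤
      (1/200000) / Real.sqrt 2 * 99995 := mul_le_mul_of_nonneg_left h (by positivity)
  have h3 : (1/200000) / Real.sqrt 2 * 99995 + (1/200000) / Real.sqrt 2 * 99995 = Real.sqrt 2 * (1/2 - 1/40000) := by
    field_simp
    rw [hsq]
    norm_num
  linarith

end Crest.Agent.Row211
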