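import Mathlib

set_option autoImplicit false

namespace Crest.Agent.Row211

/-- number of sectors per fan -/
def NN : ℕ := 100000
/-- tilt parameter -/
noncomputable def ee : ℝ := 1 / 20
/-- midpoints -/
noncomputable def cc (i : ℕ) : ℝ := -1 + (2 * (i : ℝ) + 1) / 100000
/-- end points -/
noncomputable def tt (i : ℕ) : ℝ := -1 + 2 * (i : ℝ) / 100000
/-- `P` -/
noncomputable def PP (c : ℝ) : ℝ := (1 - 1 / 10000000000 + c ^ 2) / 2
/-- excess of the cap -/
noncomputable def dl (c : ℝ) : ℝ := (1 / 800) * (c ^ 2 + c ^ 4) + 1 / 200000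
/-- cap -/
noncomputable def RR (c : ℝ) : ℝ := 1 + dl c

lemma tt_zero : tt 0 = -1 := by simp [tt]
lemma tt_last : tt 100000 = 1 := by norm_num [tt]
lemma tt_eq (i : ℕ) : tt i = cc i - 1 / 100000 := by simp only [tt, cc]; ring
lemma tt_succ (i : ℕ) : tt (i + 1) = cc i + 1 / 100000 := by simp only [tt, cc]; push_cast; ring

lemma cc_mem {i : ℕ} (hi : i < 100000) : -1 ≤ cc i ∧ cc i ≤ 1 := by
  have h1 : (i : ℝ) ≤ 99999 := by
    have : i ≤ 99999 := by omega
    exact_mod_cast this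
  have h0 : (0 : ℝ) ≤ i := Nat.cast_nonneg i
  constructor
  · simp only [cc]; linarith [div_nonneg (show (0 : ℝ) ≤ 2 * (i : ℝ) + 1 by linarith) (show (0:ℝ) ≤ 100000 by norm_num)]
  · simp only [cc]
    have : (2 * (i : ℝ) + 1) / 100000 ≤ 2 := by rw [div_le_iff₀ (by norm_num)]; linarith
    linarith

/-- discrete IVT -/
lemma discrete_ivt (G : ℕ → ℝ) (N : ℕ) (hN : 0 < N) (h0 : 0 ≤ G 0) (h1 : G N ≤ 0) :
    ∃ i < N, 0 ≤ G i ∧ G (i + 1) ≤ 0 := by
  induction N with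
  | zero => omega
  | succ n ih =>
    rcases le_or_gt (G n) 0 with h | h
    · rcases Nat.eq_zero_or_pos n with hn | hn
      · subst hn; exact ⟨0, by omega, h0, h1⟩
      · obtain ⟨i, hi, h2⟩ := ih hn h
        exact ⟨i, by omega, h2⟩
    · exact ⟨n, by omega, h.le, h1⟩

/-- sector selection for the upper fan -/
lemma exists_sector (x y z : ℝ) (hy : |y| ≤ 1 - z) :
    ∃ i < 100000, 0 ≤ 1 - z + x * (1/20 * cc i) ∧
      tt i * (1 - z + x * (1/20 * cc i)) ≤ y + x * (1/20 * PP (cc i)) ∧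
      y + x * (1/20 * PP (cc i)) ≤ tt (i + 1) * (1 - z + x * (1/20 * cc i)) := by
  have hy' := abs_le.1 hy
  let G : ℕ → ℝ := fun i => y - (1 - z) * tt i + x * (1/40) * (1 - tt i ^ 2)
  obtain ⟨i, hi, h1, h2⟩ := discrete_ivt G 100000 (by norm_num)
    (by simp only [G, tt_zero]; linarith) (by simp only [G, tt_last]; linarith)
  have e1 : y + x * (1/20 * PP (cc i)) - tt i * (1 - z + x * (1/20 * cc i)) = G i := by
    simp only [G, PP, tt_eq]; ring
  have e2 : y + x * (1/20 * PP (cc i)) - tt (i+1) * (1 - z + x * (1/20 * cc i)) = G (i+1) := by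
    simp only [G, PP, tt_succ]; ring
  refine ⟨i, hi, ?_, by linarith, by linarith⟩
  have e3 : (tt (i+1) - tt i) * (1 - z + x * (1/20 * cc i)) = G i - G (i+1) := by
    rw [← e1, ← e2]; ring
  have e4 : tt (i+1) - tt i = 1/50000 := by rw [tt_succ, tt_eq]; ring
  rw [e4] at e3
  linarith

lemma final_ineq (c c' t u : ℝ) (hc : -1 ≤ c ∧ c ≤ 1) (hc' : -1 ≤ c' ∧ c' ≤ 1)
    (ht : |t - c| ≤ 1 / 100000) (hu : |u - c'| ≤ 1 / 100000) :
    0 < 1 + (1/20)^2 * PP c * PP c' + 1/20 * c' * t - (1/20)^2 * PP c' * c * t ∧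
    0 < 1 + (1/20)^2 * PP c * PP c' - 1/20 * c * u - (1/20)^2 * PP c * u * c' ∧
    1/20 * (c * u - c' * t) + (1/20)^2 * (PP c' * c * t + PP c * u * c') ≤
    dl c * (1 + (1/20)^2 * PP c * PP c' + 1/20 * c' * t - (1/20)^2 * PP c' * c * t) +
    dl c' * (1 + (1/20)^2 * PP c * PP c' - 1/20 * c * u - (1/20)^2 * PP c * u * c') := by
  have ht' := abs_le.1 ht
  have hu' := abs_le.1 hu
  obtain ⟨θ, rfl⟩ : ∃ θ, t = c + θ := ⟨t - c, by ring⟩
  obtain ⟨φ, rfl⟩ : ∃ φ, u = c' + φ := ⟨u - c', by ring⟩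
  simp only [add_sub_cancel_left] at ht' hu'
  have ha : c ^ 2 ≤ 1 := by nlinarith
  have hb : c' ^ 2 ≤ 1 := by nlinarith
  have ha0 : 0 ≤ c ^ 2 := sq_nonneg c
  have hb0 : 0 ≤ c' ^ 2 := sq_nonneg c'
  have hP : PP c = (1 - 1 / 10000000000 + c ^ 2) / 2 := rfl
  have hQ : PP c' = (1 - 1 / 10000000000 + c' ^ 2) / 2 := rfl
  have hP0 : 0 ≤ PP c := by rw [hP]; linarith
  have hQ0 : 0 ≤ PP c' := by rw [hQ]; linarith
  have hP1 : PP c ≤ 1 := by rw [hP]; linarith
  have hQ1 : PP c' ≤ 1 := by rw [hQ]; linarith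
  -- products of small quantities
  have b1 : |c' * θ| ≤ 1/100000 := by
    rw [abs_mul]
    calc |c'| * |θ| ≤ 1 * (1/100000) :=
          mul_le_mul (abs_le.2 hc') (abs_le.2 ht') (abs_nonneg _) zero_le_one
      _ = 1/100000 := by norm_num
  have b2 : |c * φ| ≤ 1/100000 := by
    rw [abs_mul]
    calc |c| * |φ| ≤ 1 * (1/100000) :=
          mul_le_mul (abs_le.2 hc) (abs_le.2 hu') (abs_nonneg _) zero_le_one
      _ = 1/100000 := by norm_num
  have b3 : |c * θ| ≤ 1/100000 := by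
    rw [abs_mul]
    calc |c| * |θ| ≤ 1 * (1/100000) :=
          mul_le_mul (abs_le.2 hc) (abs_le.2 ht') (abs_nonneg _) zero_le_one
      _ = 1/100000 := by norm_num
  have b4 : |c' * φ| ≤ 1/100000 := by
    rw [abs_mul]
    calc |c'| * |φ| ≤ 1 * (1/100000) :=
          mul_le_mul (abs_le.2 hc') (abs_le.2 hu') (abs_nonneg _) zero_le_one
      _ = 1/100000 := by norm_num
  have b5 : |PP c' * (c * θ)| ≤ 1/100000 := by
    rw [abs_mul, abs_of_nonneg hQ0]
    calc PP c' * |c * θ| ≤ 1 * (1/100000) := mul_le_mul hQ1 b3 (abs_nonneg _) zero_le_one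
      _ = 1/100000 := by norm_num
  have b6 : |PP c * (c' * φ)| ≤ 1/100000 := by
    rw [abs_mul, abs_of_nonneg hP0]
    calc PP c * |c' * φ| ≤ 1 * (1/100000) := mul_le_mul hP1 b4 (abs_nonneg _) zero_le_one
      _ = 1/100000 := by norm_num
  rw [abs_le] at b1 b2 b3 b4 b5 b6
  -- lower bounds of k1, k2
  have hs : -1 ≤ c * c' ∧ c * c' ≤ 1 := by
    rw [← abs_le, abs_mul]
    calc |c| * |c'| ≤ 1 * 1 := mul_le_mul (abs_le.2 hc) (abs_le.2 hc') (abs_nonneg _) zero_le_one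
      _ = 1 := by norm_num
  have k1 : 1 + 1/20 * (c * c') - 1/1000000 ≤
      1 + (1/20)^2 * PP c * PP c' + 1/20 * c' * (c + θ) - (1/20)^2 * PP c' * c * (c + θ) := by
    have h1 : 0 ≤ PP c' * ((1 - c ^ 2) / 2) := mul_nonneg hQ0 (by linarith)
    have h2 : (1/20)^2 * PP c * PP c' - (1/20)^2 * PP c' * c * (c + θ) =
        (1/20)^2 * (PP c' * ((1 - c^2)/2)) - (1/20)^2 * PP c' * (1/20000000000) - (1/20)^2 * (PP c' * (c * θ)) := by
      rw [hP]; ring
    have h3 : 1/20 * c' * (c + θ) = 1/20 * (c * c') + 1/20 * (c' * θ) := by ring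
    rw [h3]
    linarith
  have k2 : 1 - 1/20 * (c * c') - 1/1000000 ≤
      1 + (1/20)^2 * PP c * PP c' - 1/20 * c * (c' + φ) - (1/20)^2 * PP c * (c' + φ) * c' := by
    have h1 : 0 ≤ PP c * ((1 - c' ^ 2) / 2) := mul_nonneg hP0 (by linarith)
    have h2 : (1/20)^2 * PP c * PP c' - (1/20)^2 * PP c * (c' + φ) * c' =
        (1/20)^2 * (PP c * ((1 - c'^2)/2)) - (1/20)^2 * PP c * (1/20000000000) - (1/20)^2 * (PP c * (c' * φ)) := by
      rw [hQ]; ring
    have h3 : 1/20 * c * (c' + φ) = 1/20 * (c * c') + 1/20 * (c * φ) := by ring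
    rw [h3]
    linarith
  have hd0 : 0 ≤ dl c := by simp only [dl]; positivity
  have hd0' : 0 ≤ dl c' := by simp only [dl]; positivity
  have hc4 : c ^ 4 ≤ 1 := by
    have : c ^ 4 = c ^ 2 * c ^ 2 := by ring
    rw [this]; nlinarith
  have hc4' : c' ^ 4 ≤ 1 := by
    have : c' ^ 4 = c' ^ 2 * c' ^ 2 := by ring
    rw [this]; nlinarith
  have hd1 : dl c ≤ 1/300 := by
    simp only [dl]; linarith
  have hd1' : dl c' ≤ 1/300 := by
    simp only [dl]; linarith
  refine ⟨by linarith [hs.1], by linarith [hs.2], ?_⟩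
  -- RHS upper bound
  have r1 : 1/20 * (c * (c' + φ) - c' * (c + θ)) ≤ 1/1000000 := by
    have : 1/20 * (c * (c' + φ) - c' * (c + θ)) = 1/20 * (c * φ - c' * θ) := by ring
    rw [this]; linarith
  have r2 : (1/20)^2 * (PP c' * c * (c + θ) + PP c * (c' + φ) * c') ≤
      (1/800) * (c^2 + c'^2 + 2 * (c^2 * c'^2)) + 1/10000000 := by
    have : PP c' * c * (c + θ) + PP c * (c' + φ) * c' =
      (1/2) * (c^2 + c'^2 + 2 * (c^2 * c'^2)) - (1/20000000000) * (c^2 + c'^2) + PP c' * (c * θ) + PP c * (c' * φ) := by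
      rw [hP, hQ]; ring
    rw [this]
    linarith
  have l1 := mul_le_mul_of_nonneg_left k1 hd0
  have l2 := mul_le_mul_of_nonneg_left k2 hd0'
  have main : 1/1000000 + ((1/800) * (c^2 + c'^2 + 2 * (c^2 * c'^2)) + 1/10000000) ≤
      dl c * (1 + 1/20 * (c * c') - 1/1000000) + dl c' * (1 - 1/20 * (c * c') - 1/1000000) := by
    have e : dl c * (1 + 1/20 * (c * c') - 1/1000000) + dl c' * (1 - 1/20 * (c * c') - 1/1000000)
        = (1/800) * (c^2 + c'^2 + c^4 + c'^4) + 1/100000 +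
          (1/800) * ((1/20) * (c*c') * (c^2 - c'^2) * (1 + c^2 + c'^2)) - (dl c + dl c') * (1/1000000) := by
      simp only [dl]; ring
    rw [e]
    have hsq : 0 ≤ ((c^2 - c'^2) + (1/40) * (c*c') * (1 + c^2 + c'^2))^2 := sq_nonneg _
    have hbd : ((c*c') * (1 + c^2 + c'^2))^2 ≤ 9 := by
      have h3 : |(c*c') * (1 + c^2 + c'^2)| ≤ 3 := by
        rw [abs_mul]
        have : |c * c'| ≤ 1 := abs_le.2 hs
        have h4 : |1 + c^2 + c'^2| ≤ 3 := by rw [abs_of_nonneg (by linarith)]; linarith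
        calc |c * c'| * |1 + c^2 + c'^2| ≤ 1 * 3 := mul_le_mul this h4 (abs_nonneg _) zero_le_one
          _ = 3 := by norm_num
      calc ((c*c') * (1 + c^2 + c'^2))^2 = |(c*c') * (1 + c^2 + c'^2)|^2 := (sq_abs _).symm
        _ ≤ 3^2 := by gcongr
        _ = 9 := by norm_num
    linarith
  linarith

lemma cover_real (x y z : ℝ) (hx : |x| ≤ 1 + z) (hy : |y| ≤ 1 - z) :
    (∃ i < 100000, 0 ≤ 1 - z + x * (1/20 * cc i) ∧ 1 - z + x * (1/20 * cc i) ≤ RR (cc i) ∧
      tt i * (1 - z + x * (1/20 * cc i)) ≤ y + x * (1/20 * PP (cc i)) ∧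
      y + x * (1/20 * PP (cc i)) ≤ tt (i + 1) * (1 - z + x * (1/20 * cc i))) ∨
    (∃ i < 100000, 0 ≤ 1 + z - y * (1/20 * cc i) ∧ 1 + z - y * (1/20 * cc i) ≤ RR (cc i) ∧
      tt i * (1 + z - y * (1/20 * cc i)) ≤ x - y * (1/20 * PP (cc i)) ∧
      x - y * (1/20 * PP (cc i)) ≤ tt (i + 1) * (1 + z - y * (1/20 * cc i))) := by
  obtain ⟨i, hi, hA0, hA1, hA2⟩ := exists_sector x y z hy
  obtain ⟨j, hj, hB0, hB1, hB2⟩ := exists_sector (-y) x (-z) (by simpa using hx)
  have eB : 1 - -z + -y * (1/20 * cc j) = 1 + z - y * (1/20 * cc j) := by ring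
  have eX : x + -y * (1/20 * PP (cc j)) = x - y * (1/20 * PP (cc j)) := by ring
  rw [eB] at hB0 hB1 hB2
  rw [eX] at hB1 hB2
  by_contra hcon
  push Not at hcon
  obtain ⟨h1, h2⟩ := hcon
  have hA : RR (cc i) < 1 - z + x * (1/20 * cc i) := by
    by_contra h
    push Not at h
    exact absurd (h1 i hi hA0 h hA1) (not_lt.2 hA2)
  have hB : RR (cc j) < 1 + z - y * (1/20 * cc j) := by
    by_contra h
    push Not at h
    exact absurd (h2 j hj hB0 h hB1) (not_lt.2 hB2)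
  clear h1 h2
  set c := cc i with hc
  set c' := cc j with hc'
  have hcm := cc_mem hi
  have hcm' := cc_mem hj
  rw [← hc] at hcm
  rw [← hc'] at hcm'
  have hRpos : 0 < RR c := by simp only [RR, dl]; positivity
  have hRpos' : 0 < RR c' := by simp only [RR, dl]; positivity
  set A := 1 - z + x * (1/20 * c) with hAdef
  set B := 1 + z - y * (1/20 * c') with hBdef
  have hApos : 0 < A := by linarith
  have hBpos : 0 < B := by linarith
  obtain ⟨t, ht⟩ : ∃ t, y + x * (1/20 * PP c) = t * A := ⟨(y + x * (1/20 * PP c)) / A, by field_simp⟩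
  obtain ⟨u, hu⟩ : ∃ u, x - y * (1/20 * PP c') = u * B := ⟨(x - y * (1/20 * PP c')) / B, by field_simp⟩
  rw [ht] at hA1 hA2
  rw [hu] at hB1 hB2
  have ht1 := le_of_mul_le_mul_right hA1 hApos
  have ht2 := le_of_mul_le_mul_right hA2 hApos
  have hu1 := le_of_mul_le_mul_right hB1 hBpos
  have hu2 := le_of_mul_le_mul_right hB2 hBpos
  rw [tt_eq] at ht1 hu1
  rw [tt_succ] at ht2 hu2
  obtain ⟨k1, k2, k3⟩ := final_ineq c c' t u hcm hcm' (abs_le.2 ⟨by linarith, by linarith⟩)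
    (abs_le.2 ⟨by linarith, by linarith⟩)
  -- the identity
  have key : (A - 1) * (1 + (1/20)^2 * PP c * PP c' + 1/20 * c' * t - (1/20)^2 * PP c' * c * t) +
      (B - 1) * (1 + (1/20)^2 * PP c * PP c' - 1/20 * c * u - (1/20)^2 * PP c * u * c') =
      1/20 * (c * u - c' * t) + (1/20)^2 * (PP c' * c * t + PP c * u * c') := by
    have hx' : x * (1 + (1/20)^2 * PP c * PP c') = u * B + 1/20 * PP c' * (t * A) := by
      linear_combination hu + 1/20 * PP c' * ht
    have hy' : y * (1 + (1/20)^2 * PP c * PP c') = t * A - 1/20 * PP c * (u * B) := by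
      linear_combination ht - 1/20 * PP c * hu
    have hAB : A + B = 2 + 1/20 * (x * c - y * c') := by
      rw [hAdef, hBdef]; ring
    linear_combination (1 + (1/20)^2 * PP c * PP c') * hAB + 1/20 * c * hx' - 1/20 * c' * hy'
  have hα : dl c < A - 1 := by simp only [RR] at hA; linarith
  have hβ : dl c' < B - 1 := by simp only [RR] at hB; linarith
  have m1 := mul_lt_mul_of_pos_right hα k1
  have m2 := mul_lt_mul_of_pos_right hβ k2
  linarith

end Crest.Agent.Row211
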