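import Crest.Agent.Row211.Fan

set_option autoImplicit false

namespace Crest.Agent.Row211

lemma sum_sq (a : ℝ) (M : ℕ) : ∑ i ∈ Finset.range M, (2 * (i : ℝ) + 1 - a) ^ 2 =
    M * (4 * M ^ 2 - 1) / 3 - 2 * a * M ^ 2 + a ^ 2 * M := by
  induction M with
  | zero => simp
  | succ n ih => rw [Finset.sum_range_succ, ih]; push_cast; ring

lemma sum_four (a : ℝ) (M : ℕ) : ∑ i ∈ Finset.range M, (2 * (i : ℝ) + 1 - a) ^ 4 =
    M * (48 * M ^ 4 - 40 * M ^ 2 + 7) / 15 - 4 * a * (M ^ 2 * (2 * M ^ 2 - 1)) +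
      6 * a ^ 2 * (M * (4 * M ^ 2 - 1) / 3) - 4 * a ^ 3 * M ^ 2 + a ^ 4 * M := by
  induction M with
  | zero => simp
  | succ n ih => rw [Finset.sum_range_succ, ih]; push_cast; ring

lemma cc_eq (i : ℕ) : cc i = (2 * (i : ℝ) + 1 - 100000) / 100000 := by
  simp only [cc]; ring

/-- length of the direction vector -/
noncomputable def dlen (c : ℝ) : ℝ := Real.sqrt (1 + (1/20 * PP c) ^ 2 + 2 * (1/20 * c) ^ 2)

lemma dlen_pos (c : ℝ) : 0 < dlen c := Real.sqrt_pos.2 (by positivity)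

lemma term_bound (c : ℝ) (hc : -1 ≤ c ∧ c ≤ 1) :
    RR c ^ 2 / dlen c ≤ 1 - (1/400) * (1/8 + c^2/4 - 7/8 * c^4) + 3/100000 := by
  have hs1 : c ^ 2 ≤ 1 := by nlinarith
  have hs0 : 0 ≤ c ^ 2 := sq_nonneg c
  have h4 : c ^ 4 = (c ^ 2) ^ 2 := by ring
  rw [div_le_iff₀ (dlen_pos c)]
  simp only [RR, dl, h4]
  have hq : (1/20 * PP c) ^ 2 + 2 * (1/20 * c) ^ 2 = (1/400) * (((1 - 1/10000000000 + c^2)/2)^2 + 2 * c^2) := by
    simp only [PP]; ring
  have hlen : dlen c = Real.sqrt (1 + (1/400) * (((1 - 1/10000000000 + c^2)/2)^2 + 2 * c^2)) := by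
    rw [dlen, add_assoc, hq]
  rw [hlen]
  generalize c ^ 2 = s at *
  clear hq hlen h4
  have hq0 : 0 ≤ (1/400) * (((1 - 1/10000000000 + s)/2)^2 + 2 * s) := by positivity
  have hq1 : (1/400) * (((1 - 1/10000000000 + s)/2)^2 + 2 * s) ≤ 3/400 := by nlinarith
  have hq2 : (1/400) * (((1 + s)/2)^2 + 2 * s) - 1/10000000000 ≤ (1/400) * (((1 - 1/10000000000 + s)/2)^2 + 2 * s) := by nlinarith
  generalize (1/400) * (((1 - 1/10000000000 + s)/2)^2 + 2 * s) = q at *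
  have hsqrt : 1 + q/2 - q^2/8 ≤ Real.sqrt (1 + q) := by
    apply Real.le_sqrt_of_sq_le
    have : (1 + q/2 - q^2/8)^2 = 1 + q - q^3 * (8 - q)/64 := by ring
    rw [this]
    have : 0 ≤ q^3 * (8 - q)/64 := by
      have : 0 ≤ 8 - q := by linarith
      positivity
    linarith
  have hq3 : q^2/8 ≤ 9/1280000 := by nlinarith
  have h5 : 1 + (1/800) * (((1 + s)/2)^2 + 2 * s) - 9/1280000 - 1/10000000000 ≤ Real.sqrt (1 + q) := by
    linarith
  have h6 : 0 ≤ 1 - (1/400) * (1/8 + s/4 - 7/8 * s^2) + 3/100000 := by nlinarith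
  refine le_trans ?_ (mul_le_mul_of_nonneg_left h5 h6)
  have hs2 : 0 ≤ s * (1 - s) := mul_nonneg hs0 (by linarith)
  nlinarith [mul_nonneg hs0 hs2, mul_nonneg hs2 hs2]

lemma sum_bound : ∑ i ∈ Finset.range 100000, RR (cc i) ^ 2 / dlen (cc i) ≤ 99995 := by
  have h1 : ∑ i ∈ Finset.range 100000, RR (cc i) ^ 2 / dlen (cc i) ≤
      ∑ i ∈ Finset.range 100000, (1 - (1/400) * (1/8 + (cc i)^2/4 - 7/8 * (cc i)^4) + 3/100000) := by
    apply Finset.sum_le_sum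
    intro i hi
    exact term_bound _ (cc_mem (Finset.mem_range.1 hi))
  refine h1.trans ?_
  have h2 : ∑ i ∈ Finset.range 100000, (1 - (1/400) * (1/8 + (cc i)^2/4 - 7/8 * (cc i)^4) + 3/100000) =
      100000 * (1 - 1/3200 + 3/100000) - (1/1600) * (1/100000)^2 * (∑ i ∈ Finset.range 100000, (2 * (i : ℝ) + 1 - 100000) ^ 2)
      + (7/3200) * (1/100000)^4 * (∑ i ∈ Finset.range 100000, (2 * (i : ℝ) + 1 - 100000) ^ 4) := by
    rw [Finset.mul_sum, Finset.mul_sum]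
    have h3 : (100000 : ℝ) * (1 - 1/3200 + 3/100000) = ∑ i ∈ Finset.range 100000, ((1 : ℝ) - 1/3200 + 3/100000) := by
      rw [Finset.sum_const, Finset.card_range]; norm_num
    rw [h3, ← Finset.sum_sub_distrib, ← Finset.sum_add_distrib]
    apply Finset.sum_congr rfl
    intro i _
    rw [cc_eq]; ring
  rw [h2, sum_sq, sum_four]
  norm_num

end Crest.Agent.Row211
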