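import Crest.Agent.Row211.Cover

set_option autoImplicit false

open MeasureTheory Module
open scoped ENNReal

namespace Crest.Agent.Row211

lemma tri_subset {K : Set E3} (hK : Convex ℝ K) {A B C : E3} (hA : A ∈ K) (hB : B ∈ K) (hC : C ∈ K)
    (v : E3) : convexHull ℝ ({proj v A, proj v B, proj v C} : Set E3) ⊆ (fun y => proj v y) '' K := by
  have h : convexHull ℝ ({proj v A, proj v B, proj v C} : Set E3) =
      (fun y => proj v y) '' convexHull ℝ ({A, B, C} : Set E3) := by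
    rw [proj_image_convexHull]
    congr 1
    simp [Set.image_insert_eq]
  rw [h]
  apply Set.image_mono
  apply convexHull_min _ hK
  rintro x (rfl | rfl | rfl) <;> assumption

lemma tri_le {K : Set E3} (hK : Convex ℝ K) {A B C : E3} (hA : A ∈ K) (hB : B ∈ K) (hC : C ∈ K)
    {v : E3} (hv : ‖v‖ = 1) :
    ENNReal.ofReal (|det3 (B - A) (C - A) v| / 2) ≤ μHE[2] ((fun y => proj v y) '' K) := by
  rw [← area_proj_triangle hv]
  exact measure_mono (tri_subset hK hA hB hC v)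

lemma det3_proj (a b v : E3) : det3 a (proj v b) v = det3 a b v := by
  simp only [det3, proj, PiLp.sub_apply, PiLp.smul_apply, smul_eq_mul]; ring

lemma measurableSet_triangle (A B C : E3) : MeasurableSet (convexHull ℝ ({A, B, C} : Set E3)) := by
  have : ({A, B, C} : Set E3).Finite := by simp
  exact (this.isCompact_convexHull ℝ).isClosed.measurableSet

lemma quad_le {K : Set E3} (hK : Convex ℝ K) {A B C D : E3} (hA : A ∈ K) (hB : B ∈ K) (hC : C ∈ K)
    (hD : D ∈ K) {v : E3} (hv : ‖v‖ = 1) :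
    ENNReal.ofReal (|det3 (B - A) (D - C) v| / 2) ≤ μHE[2] ((fun y => proj v y) '' K) := by
  have hC' := tri_le hK hA hB hC hv
  have hD' := tri_le hK hA hB hD hv
  have e : det3 (B - A) (D - C) v = det3 (B - A) (D - A) v - det3 (B - A) (C - A) v := by
    simp only [det3, PiLp.sub_apply]; ring
  set α := det3 (B - A) (C - A) v with hα
  set β := det3 (B - A) (D - A) v with hβ
  rw [e]
  rcases le_or_gt 0 (α * β) with h | h
  · -- same sign
    rcases le_total |α| |β| with h1 | h1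
    · refine le_trans (ENNReal.ofReal_le_ofReal ?_) hD'
      have : |β - α| ≤ |β| := by
        rw [abs_le]
        rcases abs_cases α with ⟨h2, h3⟩ | ⟨h2, h3⟩ <;> rcases abs_cases β with ⟨h4, h5⟩ | ⟨h4, h5⟩ <;>
          constructor <;> nlinarith
      linarith
    · refine le_trans (ENNReal.ofReal_le_ofReal ?_) hC'
      have : |β - α| ≤ |α| := by
        rw [abs_le]
        rcases abs_cases α with ⟨h2, h3⟩ | ⟨h2, h3⟩ <;> rcases abs_cases β with ⟨h4, h5⟩ | ⟨h4, h5⟩ <;>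
          constructor <;> nlinarith
      linarith
  · -- opposite signs
    have hα0 : α ≠ 0 := by rintro h0; rw [h0] at h; simp at h
    have hβ0 : β ≠ 0 := by rintro h0; rw [h0] at h; simp at h
    have habs : |β - α| = |α| + |β| := by
      rcases lt_or_gt_of_ne hα0 with h1 | h1
      · have h2 : 0 < β := by nlinarith
        rw [abs_of_neg h1, abs_of_pos h2, abs_of_pos (by linarith)]; ring
      · have h2 : β < 0 := by nlinarith
        rw [abs_of_pos h1, abs_of_neg h2, abs_of_neg (by linarith)]; ring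
    set T1 := convexHull ℝ ({proj v A, proj v B, proj v C} : Set E3) with hT1
    set T2 := convexHull ℝ ({proj v A, proj v B, proj v D} : Set E3) with hT2
    have hdisj : AEDisjoint μHE[2] T1 T2 := by
      have hz : μHE[2] (convexHull ℝ ({proj v A, proj v B, proj v A} : Set E3)) = 0 := by
        rw [area_proj_triangle hv]; simp [det3]
      refine measure_mono_null ?_ hz
      rintro x ⟨hx1, hx2⟩
      rw [hT1, mem_triangle] at hx1
      rw [hT2, mem_triangle] at hx2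
      obtain ⟨s, t, hs, ht, hst, rfl⟩ := hx1
      obtain ⟨s', t', hs', ht', hst', he⟩ := hx2
      have f1 : det3 (B - A) (s • (proj v B - proj v A) + t • (proj v C - proj v A)) v = t * α := by
        have : s • (proj v B - proj v A) + t • (proj v C - proj v A) = proj v (s • (B - A) + t • (C - A)) := by
          rw [proj_add, proj_smul, proj_smul, proj_sub, proj_sub]
        rw [this, det3_proj, hα]
        simp only [det3, PiLp.sub_apply, PiLp.add_apply, PiLp.smul_apply, smul_eq_mul]; ring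
      have f2 : det3 (B - A) (s' • (proj v B - proj v A) + t' • (proj v D - proj v A)) v = t' * β := by
        have : s' • (proj v B - proj v A) + t' • (proj v D - proj v A) = proj v (s' • (B - A) + t' • (D - A)) := by
          rw [proj_add, proj_smul, proj_smul, proj_sub, proj_sub]
        rw [this, det3_proj, hβ]
        simp only [det3, PiLp.sub_apply, PiLp.add_apply, PiLp.smul_apply, smul_eq_mul]; ring
      have he2 := add_left_cancel he
      rw [he2, f2] at f1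
      have ht0 : t = 0 := by
        by_contra hne
        have htp : 0 < t := lt_of_le_of_ne ht (Ne.symm hne)
        have h3 : (t' * β) * (t * α) = (t * α) ^ 2 := by rw [f1]; ring
        have h4 : 0 < (t * α) ^ 2 := by positivity
        have h5 : (t' * β) * (t * α) = t' * t * (α * β) := by ring
        rw [← h3, h5] at h4
        have h6 : 0 ≤ t' * t := mul_nonneg ht' ht
        nlinarith
      rw [mem_triangle]
      refine ⟨s, t, hs, ht, hst, ?_⟩
      rw [ht0]; simp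
    have hsum : μHE[2] (T1 ∪ T2) = μHE[2] T1 + μHE[2] T2 :=
      measure_union₀ (measurableSet_triangle _ _ _).nullMeasurableSet hdisj
    have hsub : T1 ∪ T2 ⊆ (fun y => proj v y) '' K :=
      Set.union_subset (tri_subset hK hA hB hC v) (tri_subset hK hA hB hD v)
    refine le_trans ?_ (measure_mono hsub)
    rw [hsum, hT1, hT2, area_proj_triangle hv, area_proj_triangle hv, ← ENNReal.ofReal_add (by positivity) (by positivity)]
    apply ENNReal.ofReal_le_ofReal
    rw [habs, ← hα, ← hβ]; linarith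

lemma num_ineq (x y z : ℝ) (hx : 0 ≤ x) (hy : 0 ≤ y) (hz : 0 ≤ z) (h : x ^ 2 + y ^ 2 + z ^ 2 = 1)
    (hyx : y ≤ x) (h1 : x + y < 1) (h2 : 2 * z < Real.sqrt 2) : Real.sqrt 2 ≤ Real.sqrt 2 * x + z := by
  have hs2' : 0 < Real.sqrt 2 := by positivity
  have hsq : Real.sqrt 2 ^ 2 = 2 := Real.sq_sqrt (by norm_num)
  by_contra hcon
  push Not at hcon
  have h3 : z < Real.sqrt 2 * (1 - x) := by linarith
  have hx1 : x < 1 := by linarith
  have h4 : z ^ 2 < 2 * (1 - x) ^ 2 := by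
    have : z ^ 2 < (Real.sqrt 2 * (1 - x)) ^ 2 := by gcongr
    rw [mul_pow, hsq] at this; exact this
  have h5 : y ^ 2 < (1 - x) ^ 2 := by
    have : y < 1 - x := by linarith
    gcongr
  have h6 : x < 1/2 := by nlinarith
  have h7 : z ^ 2 < 1/2 := by
    have : (2 * z) ^ 2 < Real.sqrt 2 ^ 2 := by gcongr
    rw [hsq] at this; nlinarith
  nlinarith

theorem min_proj {v : E3} (hv : ‖v‖ = 1) :
    ENNReal.ofReal (Real.sqrt 2) ≤ μHE[2] ((fun y => proj v y) '' K0) := by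
  have hK : Convex ℝ K0 := convex_convexHull ℝ _
  have hsub := subset_convexHull ℝ ({!₂[1, 0, 0], !₂[-1, 0, 0], !₂[0, 1, Real.sqrt 2], !₂[0, -1, Real.sqrt 2]} : Set E3)
  have hA : (!₂[1, 0, 0] : E3) ∈ K0 := hsub (by simp)
  have hB : (!₂[-1, 0, 0] : E3) ∈ K0 := hsub (by simp)
  have hC : (!₂[0, 1, Real.sqrt 2] : E3) ∈ K0 := hsub (by simp)
  have hD : (!₂[0, -1, Real.sqrt 2] : E3) ∈ K0 := hsub (by simp)
  have hn := normsq3 v
  rw [hv] at hn
  have hs2' : 0 < Real.sqrt 2 := by positivity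
  have hsq : Real.sqrt 2 ^ 2 = 2 := Real.sq_sqrt (by norm_num)
  by_contra hcon
  push Not at hcon
  have key : ∀ x : ℝ, ENNReal.ofReal x ≤ μHE[2] ((fun y => proj v y) '' K0) → x < Real.sqrt 2 := by
    intro x hx
    exact (ENNReal.ofReal_lt_ofReal_iff hs2').1 (lt_of_le_of_lt hx hcon)
  have hr : Real.sqrt 2 * Real.sqrt 2 = 2 := Real.mul_self_sqrt (by norm_num)
  have e1 : |det3 ((!₂[-1, 0, 0] : E3) - !₂[1, 0, 0]) ((!₂[0, -1, Real.sqrt 2] : E3) - !₂[0, 1, Real.sqrt 2]) v| / 2 = 2 * |v 2| := by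
    have : det3 ((!₂[-1, 0, 0] : E3) - !₂[1, 0, 0]) ((!₂[0, -1, Real.sqrt 2] : E3) - !₂[0, 1, Real.sqrt 2]) v = 4 * v 2 := by
      simp [det3]; ring
    rw [this, abs_mul]; norm_num; ring
  have e2 : |det3 ((!₂[0, 1, Real.sqrt 2] : E3) - !₂[1, 0, 0]) ((!₂[0, -1, Real.sqrt 2] : E3) - !₂[-1, 0, 0]) v| / 2 = Real.sqrt 2 * |v 0 + v 1| := by
    have : det3 ((!₂[0, 1, Real.sqrt 2] : E3) - !₂[1, 0, 0]) ((!₂[0, -1, Real.sqrt 2] : E3) - !₂[-1, 0, 0]) v = (2 * Real.sqrt 2) * (v 0 + v 1) := by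
      simp [det3]; ring
    rw [this, abs_mul, abs_of_pos (by positivity)]; ring
  have e3 : |det3 ((!₂[0, -1, Real.sqrt 2] : E3) - !₂[1, 0, 0]) ((!₂[0, 1, Real.sqrt 2] : E3) - !₂[-1, 0, 0]) v| / 2 = Real.sqrt 2 * |v 0 - v 1| := by
    have : det3 ((!₂[0, -1, Real.sqrt 2] : E3) - !₂[1, 0, 0]) ((!₂[0, 1, Real.sqrt 2] : E3) - !₂[-1, 0, 0]) v = -(2 * Real.sqrt 2) * (v 0 - v 1) := by
      simp [det3]; ring
    rw [this, abs_mul, abs_neg, abs_of_pos (by positivity)]; ring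
  have f1 : |det3 ((!₂[-1, 0, 0] : E3) - !₂[1, 0, 0]) ((!₂[0, 1, Real.sqrt 2] : E3) - !₂[1, 0, 0]) v| / 2 = |Real.sqrt 2 * v 1 - v 2| := by
    have : det3 ((!₂[-1, 0, 0] : E3) - !₂[1, 0, 0]) ((!₂[0, 1, Real.sqrt 2] : E3) - !₂[1, 0, 0]) v = 2 * (Real.sqrt 2 * v 1 - v 2) := by
      simp [det3]; ring
    rw [this, abs_mul]; norm_num
  have f2 : |det3 ((!₂[-1, 0, 0] : E3) - !₂[1, 0, 0]) ((!₂[0, -1, Real.sqrt 2] : E3) - !₂[1, 0, 0]) v| / 2 = |Real.sqrt 2 * v 1 + v 2| := by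
    have : det3 ((!₂[-1, 0, 0] : E3) - !₂[1, 0, 0]) ((!₂[0, -1, Real.sqrt 2] : E3) - !₂[1, 0, 0]) v = 2 * (Real.sqrt 2 * v 1 + v 2) := by
      simp [det3]; ring
    rw [this, abs_mul]; norm_num
  have f3 : |det3 ((!₂[0, 1, Real.sqrt 2] : E3) - !₂[1, 0, 0]) ((!₂[0, -1, Real.sqrt 2] : E3) - !₂[1, 0, 0]) v| / 2 = |Real.sqrt 2 * v 0 + v 2| := by
    have : det3 ((!₂[0, 1, Real.sqrt 2] : E3) - !₂[1, 0, 0]) ((!₂[0, -1, Real.sqrt 2] : E3) - !₂[1, 0, 0]) v = 2 * (Real.sqrt 2 * v 0 + v 2) := by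
      simp [det3]; ring
    rw [this, abs_mul]; norm_num
  have f4 : |det3 ((!₂[0, 1, Real.sqrt 2] : E3) - !₂[-1, 0, 0]) ((!₂[0, -1, Real.sqrt 2] : E3) - !₂[-1, 0, 0]) v| / 2 = |Real.sqrt 2 * v 0 - v 2| := by
    have : det3 ((!₂[0, 1, Real.sqrt 2] : E3) - !₂[-1, 0, 0]) ((!₂[0, -1, Real.sqrt 2] : E3) - !₂[-1, 0, 0]) v = 2 * (Real.sqrt 2 * v 0 - v 2) := by
      simp [det3]; ring
    rw [this, abs_mul]; norm_num
  have q1 := key _ (quad_le hK hA hB hC hD hv)
  have q2 := key _ (quad_le hK hA hC hB hD hv)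
  have q3 := key _ (quad_le hK hA hD hB hC hv)
  have t1 := key _ (tri_le hK hA hB hC hv)
  have t2 := key _ (tri_le hK hA hB hD hv)
  have t3 := key _ (tri_le hK hA hC hD hv)
  have t4 := key _ (tri_le hK hB hC hD hv)
  rw [e1] at q1
  rw [e2] at q2
  rw [e3] at q3
  rw [f1] at t1
  rw [f2] at t2
  rw [f3] at t3
  rw [f4] at t4
  have q2' : |v 0 + v 1| < 1 := by
    have : Real.sqrt 2 * |v 0 + v 1| < Real.sqrt 2 * 1 := by linarith
    exact lt_of_mul_lt_mul_left this hs2'.le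
  have q3' : |v 0 - v 1| < 1 := by
    have : Real.sqrt 2 * |v 0 - v 1| < Real.sqrt 2 * 1 := by linarith
    exact lt_of_mul_lt_mul_left this hs2'.le
  have hsum : |v 0| + |v 1| < 1 := by
    rw [abs_lt] at q2' q3'
    rcases abs_cases (v 0) with ⟨h2, h3⟩ | ⟨h2, h3⟩ <;> rcases abs_cases (v 1) with ⟨h4, h5⟩ | ⟨h4, h5⟩ <;> linarith
  have hsq' : |v 0| ^ 2 + |v 1| ^ 2 + |v 2| ^ 2 = 1 := by
    rw [sq_abs, sq_abs, sq_abs]; linarith
  have m1 : Real.sqrt 2 * |v 1| + |v 2| < Real.sqrt 2 := by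
    rw [abs_lt] at t1 t2
    rcases abs_cases (v 1) with ⟨h2, h3⟩ | ⟨h2, h3⟩ <;> rcases abs_cases (v 2) with ⟨h4, h5⟩ | ⟨h4, h5⟩ <;>
      rw [h2, h4] <;> linarith
  have m0 : Real.sqrt 2 * |v 0| + |v 2| < Real.sqrt 2 := by
    rw [abs_lt] at t3 t4
    rcases abs_cases (v 0) with ⟨h2, h3⟩ | ⟨h2, h3⟩ <;> rcases abs_cases (v 2) with ⟨h4, h5⟩ | ⟨h4, h5⟩ <;>
      rw [h2, h4] <;> linarith
  rcases le_total |v 1| |v 0| with h | h
  · exact absurd m0 (not_lt.2 (num_ineq _ _ _ (abs_nonneg _) (abs_nonneg _) (abs_nonneg _) hsq' h hsum q1))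
  · exact absurd m1 (not_lt.2 (num_ineq _ _ _ (abs_nonneg _) (abs_nonneg _) (abs_nonneg _)
      (by linarith) h (by linarith) q1))

/-- equality for projection along the first edge -/
theorem min_proj_attained : ‖(!₂[1, 0, 0] : E3)‖ = 1 ∧
    μHE[2] ((fun y => proj !₂[1, 0, 0] y) '' K0) = ENNReal.ofReal (Real.sqrt 2) := by
  have hn : ‖(!₂[1, 0, 0] : E3)‖ = 1 := by simp [EuclideanSpace.norm_eq, Fin.sum_univ_three]
  refine ⟨hn, ?_⟩
  have h : (fun y => proj !₂[1, 0, 0] y) '' K0 =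
      convexHull ℝ ({proj !₂[1, 0, 0] !₂[1, 0, 0], proj !₂[1, 0, 0] !₂[0, 1, Real.sqrt 2], proj !₂[1, 0, 0] !₂[0, -1, Real.sqrt 2]} : Set E3) := by
    rw [K0, proj_image_convexHull]
    congr 1
    have e : proj !₂[1, 0, 0] (!₂[-1, 0, 0] : E3) = proj !₂[1, 0, 0] !₂[1, 0, 0] := by
      have e0 : (!₂[-1, 0, 0] : E3) = (-1 : ℝ) • !₂[1, 0, 0] := by
        ext k; fin_cases k <;> simp
      rw [e0, proj_smul, proj_self hn, smul_zero]
    simp only [Set.image_insert_eq, Set.image_singleton, e]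
    simp
  rw [h, area_proj_triangle hn]
  congr 1
  simp [det3]
  rw [abs_of_nonneg (by have := Real.sqrt_nonneg 2; linarith)]
  ring

end Crest.Agent.Row211
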