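import Crest.Agent.Row211.Area

set_option autoImplicit false

open MeasureTheory Module
open scoped ENNReal

namespace Crest.Agent.Row211

/-- the plane orthogonal to `u` -/
def plane (u : E3) : Set E3 := {x | inner ℝ x u = 0}

lemma exists_isometry_plane {u : E3} (hu : ‖u‖ = 1) : ∃ f : E2 →ₗᵢ[ℝ] E3, Set.range f = plane u := by
  have hu0 : u ≠ 0 := by rintro rfl; simp at hu
  have hfin : finrank ℝ (Submodule.span ℝ {u})ᗮ = 2 := by
    have h1 := Submodule.finrank_add_finrank_orthogonal (Submodule.span ℝ {u})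
    rw [finrank_span_singleton hu0, finrank_euclideanSpace, Fintype.card_fin] at h1
    omega
  let b : OrthonormalBasis (Fin 2) ℝ (Submodule.span ℝ {u})ᗮ :=
    (stdOrthonormalBasis ℝ _).reindex (finCongr hfin)
  refine ⟨(Submodule.span ℝ {u})ᗮ.subtypeₗᵢ.comp b.repr.symm.toLinearIsometry, ?_⟩
  ext x
  simp only [plane, Set.mem_range, Set.mem_ofPred_eq]
  constructor
  · rintro ⟨y, rfl⟩
    have h := (b.repr.symm y).2
    rw [Submodule.mem_orthogonal_singleton_iff_inner_left] at h
    exact h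
  · intro hx
    have h : x ∈ (Submodule.span ℝ {u})ᗮ := by
      rw [Submodule.mem_orthogonal_singleton_iff_inner_left]; exact hx
    exact ⟨b.repr ⟨x, h⟩, by simp⟩

lemma finite_of_bounded {u : E3} (hu : ‖u‖ = 1) {S : Set E3} (hS : S ⊆ plane u)
    (hb : Bornology.IsBounded S) : μHE[2] S < ⊤ := by
  obtain ⟨f, hf⟩ := exists_isometry_plane hu
  have h1 : S = f '' (f ⁻¹' S) := by
    rw [Set.image_preimage_eq_inter_range, hf, Set.inter_eq_left.2 hS]
  rw [h1, f.isometry.euclideanHausdorffMeasure_image, EuclideanSpace.euclideanHausdorffMeasure_eq_volume]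
  have hb2 : Bornology.IsBounded (f ⁻¹' S) := by
    exact f.isometry.antilipschitz.isBounded_preimage hb
  exact hb2.measure_lt_top

/-- outer regularity within the plane -/
lemma exists_open_enlarge {u : E3} (hu : ‖u‖ = 1) {S : Set E3} (hS : S ⊆ plane u)
    (hc : IsCompact S) {ε : ℝ≥0∞} (hε : ε ≠ 0) :
    ∃ O : Set E3, IsOpen O ∧ Bornology.IsBounded O ∧ S ⊆ O ∧ μHE[2] (O ∩ plane u) < μHE[2] S + ε := by
  obtain ⟨f, hf⟩ := exists_isometry_plane hu
  have h1 : S = f '' (f ⁻¹' S) := by
    rw [Set.image_preimage_eq_inter_range, hf, Set.inter_eq_left.2 hS]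
  have hfin := finite_of_bounded hu hS hc.isBounded
  have hvol : volume (f ⁻¹' S) = μHE[2] S := by
    conv_rhs => rw [h1]
    rw [f.isometry.euclideanHausdorffMeasure_image, EuclideanSpace.euclideanHausdorffMeasure_eq_volume]
  obtain ⟨W, hW1, hWo, hW2⟩ := Set.exists_isOpen_lt_add (μ := (volume : Measure E2)) (f ⁻¹' S)
    (by rw [hvol]; exact hfin.ne) hε
  let g : E3 → E2 := fun x => !₂[inner ℝ (f (EuclideanSpace.single 0 1)) x, inner ℝ (f (EuclideanSpace.single 1 1)) x]
  have hg : Continuous g := by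
    have : g = fun x => WithLp.toLp 2 ![inner ℝ (f (EuclideanSpace.single 0 1)) x, inner ℝ (f (EuclideanSpace.single 1 1)) x] := rfl
    rw [this]
    refine (PiLp.continuous_toLp 2 _).comp ?_
    refine continuous_pi fun i => ?_
    fin_cases i
    · simp; fun_prop
    · simp; fun_prop
  have hgf : ∀ w, g (f w) = w := by
    intro w
    ext i
    fin_cases i <;> simp [g, LinearIsometry.inner_map_map, EuclideanSpace.inner_single_left]
  obtain ⟨R, hR⟩ := hc.isBounded.subset_ball 0
  refine ⟨g ⁻¹' W ∩ Metric.ball 0 R, (hWo.preimage hg).inter Metric.isOpen_ball,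
    Metric.isBounded_ball.subset Set.inter_subset_right, ?_, ?_⟩
  · intro x hx
    refine ⟨?_, hR hx⟩
    rw [h1] at hx
    obtain ⟨w, hw, rfl⟩ := hx
    change g (f w) ∈ W
    rw [hgf]; exact hW1 hw
  · have hsub : (g ⁻¹' W ∩ Metric.ball 0 R) ∩ plane u ⊆ f '' W := by
      rintro x ⟨⟨hx1, -⟩, hx2⟩
      rw [← hf] at hx2
      obtain ⟨w, rfl⟩ := hx2
      refine ⟨w, ?_, rfl⟩
      have : g (f w) ∈ W := hx1
      rwa [hgf] at this
    calc μHE[2] ((g ⁻¹' W ∩ Metric.ball 0 R) ∩ plane u) ≤ μHE[2] (f '' W) := measure_mono hsub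
      _ = volume W := by
        rw [f.isometry.euclideanHausdorffMeasure_image, EuclideanSpace.euclideanHausdorffMeasure_eq_volume]
      _ < μHE[2] S + ε := by rw [← hvol]; exact hW2

lemma proj_mem_plane {u : E3} (hu : ‖u‖ = 1) (x : E3) : proj u x ∈ plane u := inner_proj hu x

lemma proj_image_bounded (u : E3) {S : Set E3} (hb : Bornology.IsBounded S) :
    Bornology.IsBounded ((fun y => proj u y) '' S) := by
  have hL : LipschitzWith (1 + ‖u‖₊ * ‖u‖₊) (fun y => proj u y) := by
    apply LipschitzWith.of_dist_le_mul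
    intro x y
    rw [dist_eq_norm, dist_eq_norm, proj_sub, proj]
    calc ‖x - y - inner ℝ (x - y) u • u‖ ≤ ‖x - y‖ + ‖inner ℝ (x - y) u • u‖ := norm_sub_le _ _
      _ ≤ ‖x - y‖ + ‖x - y‖ * ‖u‖ * ‖u‖ := by
        rw [norm_smul]
        gcongr
        exact norm_inner_le_norm _ _
      _ = _ := by push_cast; ring
  exact hL.isBounded_image hb

lemma proj_image_finite {u : E3} (hu : ‖u‖ = 1) {S : Set E3} (hb : Bornology.IsBounded S) :
    μHE[2] ((fun y => proj u y) '' S) < ⊤ := by
  apply finite_of_bounded hu _ (proj_image_bounded u hb)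
  rintro _ ⟨x, -, rfl⟩
  exact proj_mem_plane hu x

end Crest.Agent.Row211
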