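import Mathlib

set_option autoImplicit false
open MeasureTheory
open scoped ENNReal

namespace Crest.Agent.Row211.Ruled

abbrev E2 := EuclideanSpace ℝ (Fin 2)

/-- linear covering lemma -/
lemma exists_int_pair (s1 s2 x y : ℝ) (h0 : 0 ≤ s1 * s2) (h1 : s1 * s2 < 1) :
    ∃ m n : ℤ, |x - (m + s2 * n)| ≤ 1 / 2 ∧ |y - (s1 * m + n)| ≤ 1 / 2 := by
  set x' := x + 1 / 2 with hx'
  set y' := y + 1 / 2 with hy'
  set n : ℤ → ℤ := fun m => ⌊y' - s1 * m⌋ with hn
  have hn1 : ∀ m, (n m : ℝ) ≤ y' - s1 * m := fun m => Int.floor_le _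
  have hn2 : ∀ m, y' - s1 * m < n m + 1 := fun m => Int.lt_floor_add_one _
  set ph : ℤ → ℝ := fun m => m + s2 * n m with hph
  have hlow : ∀ m, (1 - s1 * s2) * m + s2 * y' - |s2| ≤ ph m := by
    intro m
    simp only [hph]
    have e : (m : ℝ) + s2 * n m = (1 - s1 * s2) * m + s2 * y' - s2 * (y' - s1 * m - n m) := by ring
    rw [e]
    have h3 : s2 * (y' - s1 * m - n m) ≤ |s2| := by
      have h5 : 0 ≤ y' - s1 * m - n m := by linarith [hn1 m]
      have h6 : y' - s1 * m - n m ≤ 1 := by linarith [hn2 m]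
      have h4 := le_abs_self s2
      have h7 := abs_nonneg s2
      nlinarith
    linarith
  have hup : ∀ m, ph m ≤ (1 - s1 * s2) * m + s2 * y' + |s2| := by
    intro m
    simp only [hph]
    have e : (m : ℝ) + s2 * n m = (1 - s1 * s2) * m + s2 * y' - s2 * (y' - s1 * m - n m) := by ring
    rw [e]
    have h3 : -|s2| ≤ s2 * (y' - s1 * m - n m) := by
      have h5 : 0 ≤ y' - s1 * m - n m := by linarith [hn1 m]
      have h6 : y' - s1 * m - n m ≤ 1 := by linarith [hn2 m]
      have h4 := neg_abs_le s2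
      have h7 := abs_nonneg s2
      nlinarith
    linarith
  have hstep : ∀ m, ph (m + 1) ≤ ph m + 1 := by
    intro m
    simp only [hph]
    have h3 : s2 * (n (m + 1) : ℝ) ≤ s2 * n m := by
      rcases lt_trichotomy s2 0 with h | h | h
      · have hs1 : s1 ≤ 0 := by
          by_contra hc
          push Not at hc
          nlinarith [mul_pos_of_neg_of_neg h (neg_lt_zero.2 hc)]
        have : n m ≤ n (m + 1) := by
          apply Int.floor_le_floor
          push_cast
          linarith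
        have : (n m : ℝ) ≤ n (m + 1) := by exact_mod_cast this
        nlinarith
      · rw [h]; simp
      · have hs1 : 0 ≤ s1 := by
          by_contra hc
          push Not at hc
          nlinarith [mul_pos h (neg_pos.2 hc)]
        have : n (m + 1) ≤ n m := by
          apply Int.floor_le_floor
          push_cast
          linarith
        have : (n (m + 1) : ℝ) ≤ n m := by exact_mod_cast this
        nlinarith
    push_cast
    linarith
  have hd : 0 < 1 - s1 * s2 := by linarith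
  obtain ⟨m, hm, hmax⟩ := Int.exists_greatest_of_bdd (P := fun m : ℤ => ph m ≤ x')
    ⟨⌈(x' - s2 * y' + |s2|) / (1 - s1 * s2)⌉, fun z hz => by
      have h3 := hlow z
      have h4 : (z : ℝ) ≤ (x' - s2 * y' + |s2|) / (1 - s1 * s2) := by
        rw [le_div_iff₀ hd]; linarith
      exact_mod_cast h4.trans (Int.le_ceil _)⟩
    ⟨⌊(x' - s2 * y' - |s2|) / (1 - s1 * s2)⌋, by
      have h3 := hup ⌊(x' - s2 * y' - |s2|) / (1 - s1 * s2)⌋
      have h4 : ((⌊(x' - s2 * y' - |s2|) / (1 - s1 * s2)⌋ : ℤ) : ℝ) ≤ (x' - s2 * y' - |s2|) / (1 - s1 * s2) :=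
        Int.floor_le _
      rw [le_div_iff₀ hd] at h4
      linarith⟩
  have hgt : x' < ph (m + 1) := by
    by_contra hc
    push Not at hc
    have := hmax (m + 1) hc
    omega
  have h3 := hstep m
  refine ⟨m, n m, ?_, ?_⟩
  · rw [abs_le]
    simp only [hph] at hm h3 hgt
    constructor <;> linarith
  · rw [abs_le]
    have := hn1 m
    have := hn2 m
    constructor <;> linarith

/-- coordinates of a vector in `E2` -/
lemma inner2 (a b : E2) : inner ℝ a b = a 0 * b 0 + a 1 * b 1 := by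
  simp [PiLp.inner_apply, Fin.sum_univ_two, mul_comm]

lemma normsq2 (a : E2) : ‖a‖ ^ 2 = a 0 ^ 2 + a 1 ^ 2 := by
  rw [← real_inner_self_eq_norm_sq, inner2]; ring

/-- an orthonormal frame -/
structure Frame where
  e : E2
  f : E2
  he : e 0 ^ 2 + e 1 ^ 2 = 1
  hf0 : f 0 = - e 1
  hf1 : f 1 = e 0

namespace Frame

variable (F : Frame)

lemma norm_e : ‖F.e‖ = 1 := by
  have := normsq2 F.e
  rw [F.he] at this
  nlinarith [norm_nonneg F.e]

lemma norm_f : ‖F.f‖ = 1 := by
  have := normsq2 F.f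
  rw [F.hf0, F.hf1] at this
  have h := F.he
  have h2 : ‖F.f‖ ^ 2 = 1 := by rw [this]; linarith
  nlinarith [norm_nonneg F.f]

lemma inner_ef : inner ℝ F.e F.f = 0 := by
  rw [inner2, F.hf0, F.hf1]; ring

lemma expand (v : E2) : v = inner ℝ F.e v • F.e + inner ℝ F.f v • F.f := by
  ext i
  fin_cases i
  · simp [inner2, F.hf0, F.hf1]
    linear_combination (-(v 0)) * F.he
  · simp [inner2, F.hf0, F.hf1]
    linear_combination (-(v 1)) * F.he

end Frame

lemma exists_frame (A : E2 →L[ℝ] E2) (htr : LinearMap.trace ℝ _ A.toLinearMap = 0) :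
    ∃ F : Frame, ∃ b c : ℝ, A F.e = c • F.f ∧ A F.f = b • F.e ∧
      LinearMap.det A.toLinearMap = -(b * c) := by
  set B := (EuclideanSpace.basisFun (Fin 2) ℝ).toBasis with hB
  set e0 : E2 := EuclideanSpace.single 0 1 with he0
  set e1 : E2 := EuclideanSpace.single 1 1 with he1
  have hmat : ∀ i j, LinearMap.toMatrix B B A.toLinearMap i j = (A (EuclideanSpace.single j 1)) i := by
    intro i j
    rw [LinearMap.toMatrix_apply]
    simp [hB]
  have htr' : (A e0) 0 + (A e1) 1 = 0 := by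
    rw [LinearMap.trace_eq_matrix_trace ℝ B, Matrix.trace_fin_two, hmat, hmat] at htr
    exact htr
  have hdet : LinearMap.det A.toLinearMap = (A e0) 0 * (A e1) 1 - (A e1) 0 * (A e0) 1 := by
    rw [← LinearMap.det_toMatrix B, Matrix.det_fin_two, hmat, hmat, hmat, hmat]
  set a11 := (A e0) 0
  set a21 := (A e0) 1
  set a12 := (A e1) 0
  set a22 := (A e1) 1
  have hA : ∀ v : E2, A v = v 0 • A e0 + v 1 • A e1 := by
    intro v
    have hv : v = v 0 • e0 + v 1 • e1 := by
      ext i
      fin_cases i <;> simp [he0, he1]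
    conv_lhs => rw [hv]
    simp
  have hA0 : ∀ v : E2, (A v) 0 = v 0 * a11 + v 1 * a12 := by
    intro v; rw [hA v]; simp [a11, a12]
  have hA1 : ∀ v : E2, (A v) 1 = v 0 * a21 + v 1 * a22 := by
    intro v; rw [hA v]; simp [a21, a22]
  -- angle
  obtain ⟨θ, hθ⟩ : ∃ θ : ℝ, a11 * Real.cos (2 * θ) + (a12 + a21) / 2 * Real.sin (2 * θ) = 0 := by
    set G : ℝ → ℝ := fun θ => a11 * Real.cos (2 * θ) + (a12 + a21) / 2 * Real.sin (2 * θ) with hG
    have hc : Continuous G := by fun_prop
    have h0 : G 0 = a11 := by simp [hG]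
    have h1 : G (Real.pi / 2) = -a11 := by
      simp only [hG]
      rw [show 2 * (Real.pi / 2) = Real.pi by ring, Real.cos_pi, Real.sin_pi]; ring
    have := intermediate_value_uIcc (a := (0:ℝ)) (b := Real.pi / 2) (f := G) hc.continuousOn
    have h2 : (0:ℝ) ∈ Set.uIcc (G 0) (G (Real.pi / 2)) := by
      rw [h0, h1, Set.mem_uIcc]
      rcases le_total 0 a11 with h | h
      · right; constructor <;> linarith
      · left; constructor <;> linarith
    obtain ⟨θ, -, hθ⟩ := this h2
    exact ⟨θ, hθ⟩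
  set x := Real.cos θ with hx
  set y := Real.sin θ with hy
  have hxy : x ^ 2 + y ^ 2 = 1 := by
    rw [hx, hy]; exact Real.cos_sq_add_sin_sq θ
  have hkey : a11 * (x ^ 2 - y ^ 2) + (a12 + a21) * (x * y) = 0 := by
    rw [Real.cos_two_mul', Real.sin_two_mul] at hθ
    linarith
  have ha22 : a22 = -a11 := by linarith
  refine ⟨⟨!₂[x, y], !₂[-y, x], by simpa using hxy, by simp, by simp⟩,
    (x * (-y * a11 + x * a12) + y * (-y * a21 + x * a22)),
    (-y * (x * a11 + y * a12) + x * (x * a21 + y * a22)), ?_, ?_, ?_⟩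
  · ext i
    fin_cases i
    · simp only [Fin.zero_eta, Fin.isValue, PiLp.smul_apply, smul_eq_mul]
      rw [hA0]
      simp
      rw [ha22]
      linear_combination x * hkey - (a11 * x + a12 * y) * hxy
    · simp only [Fin.mk_one, Fin.isValue, PiLp.smul_apply, smul_eq_mul]
      rw [hA1]
      simp
      rw [ha22]
      linear_combination y * hkey - (a21 * x - a11 * y) * hxy
  · ext i
    fin_cases i
    · simp only [Fin.zero_eta, Fin.isValue, PiLp.smul_apply, smul_eq_mul]
      rw [hA0]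
      simp
      rw [ha22]
      linear_combination y * hkey - (-a11 * y + a12 * x) * hxy
    · simp only [Fin.mk_one, Fin.isValue, PiLp.smul_apply, smul_eq_mul]
      rw [hA1]
      simp
      rw [ha22]
      linear_combination -x * hkey - (-a21 * y - a11 * x) * hxy
  · rw [hdet, ha22]
    linear_combination (a11 ^ 2 + a12 * a21) * (x ^ 2 + y ^ 2 + 1) * hxy
      - (a11 * (x ^ 2 - y ^ 2) + (a12 + a21) * (x * y)) * hkey

/-! ### Tiles -/

/-- a tile with velocity: corner, two edge vectors, velocity -/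
structure Tile where
  c : E2
  a : E2
  b : E2
  g : E2
  ha : a ≠ 0
  hab : ‖b‖ = ‖a‖
  hi : inner ℝ a b = 0

/-- membership of `(s, ξ)` in the sheared cylinder of the tile -/
def Tile.Mem (T : Tile) (s : ℝ) (ξ : E2) : Prop :=
  ∃ x ∈ Set.Icc (0 : ℝ) 1, ∃ y ∈ Set.Icc (0 : ℝ) 1, ξ = T.c + x • T.a + y • T.b + s • T.g

/-- weight -/
noncomputable def J (h : ℝ) (g : E2) : ℝ := 1 / Real.sqrt (1 + (g 0) ^ 2 + h ^ 2 * (g 1) ^ 2)

lemma J_pos (h : ℝ) (g : E2) : 0 < J h g := by
  unfold J
  have : 0 < 1 + (g 0) ^ 2 + h ^ 2 * (g 1) ^ 2 := by positivity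
  positivity

lemma J_le_one (h : ℝ) (g : E2) : J h g ≤ 1 := by
  unfold J
  have h1 : 1 ≤ Real.sqrt (1 + (g 0) ^ 2 + h ^ 2 * (g 1) ^ 2) := by
    rw [Real.one_le_sqrt]; nlinarith [sq_nonneg (g 0), sq_nonneg (h * g 1)]
  rw [div_le_one (by positivity)]
  exact h1

lemma continuous_J (h : ℝ) : Continuous (J h) := by
  unfold J
  refine Continuous.div continuous_const (by fun_prop) (fun g => ?_)
  have : 0 < 1 + (g 0) ^ 2 + h ^ 2 * (g 1) ^ 2 := by positivity
  positivity

noncomputable def Tile.cost (h : ℝ) (T : Tile) : ℝ := ‖T.a‖ ^ 2 * J h T.g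

/-- the list of tiles covers the ruled set over `M` -/
def Cov (V : E2 → E2) (L : ℝ) (M : Set E2) (l : List Tile) : Prop :=
  ∀ p ∈ M, ∀ s : ℝ, |s| ≤ L → ∃ T ∈ l, T.Mem s (p + s • V p)

lemma Cov.append {V : E2 → E2} {L : ℝ} {M M' : Set E2} {l l' : List Tile}
    (h : Cov V L M l) (h' : Cov V L M' l') : Cov V L (M ∪ M') (l ++ l') := by
  rintro p (hp | hp) s hs
  · obtain ⟨T, hT, hm⟩ := h p hp s hs
    exact ⟨T, List.mem_append_left _ hT, hm⟩
  · obtain ⟨T, hT, hm⟩ := h' p hp s hs
    exact ⟨T, List.mem_append_right _ hT, hm⟩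

lemma Cov.mono {V : E2 → E2} {L : ℝ} {M M' : Set E2} {l : List Tile}
    (h : Cov V L M l) (hM : M' ⊆ M) : Cov V L M' l := fun p hp => h p (hM hp)

/-! ### Micro grid of a frame -/

/-- the grid cell of a frame -/
def cell (F : Frame) (r : ℝ) (z : ℤ × ℤ) : Set E2 :=
  {x | ⌊inner ℝ F.e x / r⌋ = z.1 ∧ ⌊inner ℝ F.f x / r⌋ = z.2}

/-- the isometry attached to the frame -/
noncomputable def Frame.iso (F : Frame) : E2 ≃ₗᵢ[ℝ] E2 :=
  LinearIsometryEquiv.mk
    { toFun := fun x => !₂[inner ℝ F.e x, inner ℝ F.f x]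
      map_add' := by
        intro x y; ext i; fin_cases i <;> simp [inner_add_right]
      map_smul' := by
        intro c x; ext i; fin_cases i <;> simp [inner_smul_right]
      invFun := fun y => y 0 • F.e + y 1 • F.f
      left_inv := by
        intro x
        exact (F.expand x).symm
      right_inv := by
        intro y
        have h1 := F.inner_ef
        have h2 : inner ℝ F.f F.e = 0 := by rw [real_inner_comm]; exact h1
        ext i
        fin_cases i
        · simp [inner_add_right, inner_smul_right, h1, F.norm_e]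
        · simp [inner_add_right, inner_smul_right, h2, F.norm_f] }
    (by
      intro x
      have h1 : ‖(!₂[inner ℝ F.e x, inner ℝ F.f x] : E2)‖ ^ 2 = ‖x‖ ^ 2 := by
        rw [normsq2, normsq2]
        simp only [inner2, F.hf0, F.hf1]
        simp
        linear_combination (x 0 ^ 2 + x 1 ^ 2) * F.he
      have h2 := norm_nonneg (!₂[inner ℝ F.e x, inner ℝ F.f x] : E2)
      have h3 := norm_nonneg x
      exact (sq_eq_sq₀ h2 h3).1 h1)

lemma Frame.iso_apply (F : Frame) (x : E2) : F.iso x = !₂[inner ℝ F.e x, inner ℝ F.f x] := rfl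

lemma cell_eq (F : Frame) (r : ℝ) (hr : 0 < r) (z : ℤ × ℤ) :
    cell F r z = F.iso ⁻¹' {y : E2 | y 0 ∈ Set.Ico (z.1 * r) ((z.1 + 1) * r) ∧
      y 1 ∈ Set.Ico (z.2 * r) ((z.2 + 1) * r)} := by
  have key : ∀ (t : ℝ) (m : ℤ), ⌊t / r⌋ = m ↔ t ∈ Set.Ico (m * r) ((m + 1) * r) := by
    intro t m
    rw [Int.floor_eq_iff, Set.mem_Ico, le_div_iff₀ hr, div_lt_iff₀ hr]
  ext x
  simp only [cell, Set.mem_preimage, Set.mem_ofPred_eq, key, Frame.iso_apply]
  simp

lemma volume_cell (F : Frame) (r : ℝ) (hr : 0 < r) (z : ℤ × ℤ) :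
    volume (cell F r z) = ENNReal.ofReal (r ^ 2) := by
  have hset : {y : E2 | y 0 ∈ Set.Ico (z.1 * r) ((z.1 + 1) * r) ∧
      y 1 ∈ Set.Ico (z.2 * r) ((z.2 + 1) * r)} = (WithLp.ofLp : E2 → (Fin 2 → ℝ)) ⁻¹'
      (Set.pi Set.univ fun i => Set.Ico ((![(z.1 : ℝ) * r, z.2 * r] : Fin 2 → ℝ) i)
        ((![((z.1 : ℝ) + 1) * r, (z.2 + 1) * r] : Fin 2 → ℝ) i)) := by
    ext y
    simp only [Set.mem_ofPred_eq, Set.mem_preimage, Set.mem_pi, Set.mem_univ, forall_true_left,
      Fin.forall_fin_two]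
    simp
  have hms : MeasurableSet (Set.pi Set.univ fun i => Set.Ico ((![(z.1 : ℝ) * r, z.2 * r] : Fin 2 → ℝ) i)
        ((![((z.1 : ℝ) + 1) * r, (z.2 + 1) * r] : Fin 2 → ℝ) i)) :=
    MeasurableSet.univ_pi fun i => measurableSet_Ico
  have hms2 : MeasurableSet {y : E2 | y 0 ∈ Set.Ico (z.1 * r) ((z.1 + 1) * r) ∧
      y 1 ∈ Set.Ico (z.2 * r) ((z.2 + 1) * r)} := by
    rw [hset]
    exact (PiLp.volume_preserving_ofLp (Fin 2)).measurable hms
  rw [cell_eq F r hr, F.iso.measurePreserving.measure_preimage hms2.nullMeasurableSet, hset,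
    (PiLp.volume_preserving_ofLp (Fin 2)).measure_preimage hms.nullMeasurableSet, Real.volume_pi_Ico]
  simp only [Fin.prod_univ_two]
  simp
  rw [← ENNReal.ofReal_mul]
  · congr 1; ring
  · linarith

lemma measurableSet_cell (F : Frame) (r : ℝ) (z : ℤ × ℤ) : MeasurableSet (cell F r z) := by
  have h1 : Measurable (fun x : E2 => ⌊inner ℝ F.e x / r⌋) :=
    Int.measurable_floor.comp (by fun_prop)
  have h2 : Measurable (fun x : E2 => ⌊inner ℝ F.f x / r⌋) :=
    Int.measurable_floor.comp (by fun_prop)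
  exact (h1 (measurableSet_singleton _)).inter (h2 (measurableSet_singleton _))

lemma cell_disjoint (F : Frame) (r : ℝ) {z w : ℤ × ℤ} (h : z ≠ w) :
    Disjoint (cell F r z) (cell F r w) := by
  rw [Set.disjoint_left]
  rintro x ⟨h1, h2⟩ ⟨h3, h4⟩
  exact h (Prod.ext (h1.symm.trans h3) (h2.symm.trans h4))

/-- grid point -/
noncomputable def gp (F : Frame) (r : ℝ) (z : ℤ × ℤ) : E2 := (r * z.1) • F.e + (r * z.2) • F.f

lemma Frame.norm_comb (F : Frame) (x y : ℝ) : ‖x • F.e + y • F.f‖ ≤ |x| + |y| := by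
  calc ‖x • F.e + y • F.f‖ ≤ ‖x • F.e‖ + ‖y • F.f‖ := norm_add_le _ _
    _ = |x| + |y| := by rw [norm_smul, norm_smul, F.norm_e, F.norm_f]; simp

lemma dist_cell (F : Frame) {r : ℝ} (hr : 0 < r) {z : ℤ × ℤ} {x : E2} (hx : x ∈ cell F r z) :
    ‖x - gp F r z‖ ≤ 2 * r := by
  obtain ⟨h1, h2⟩ := hx
  rw [Int.floor_eq_iff, le_div_iff₀ hr, div_lt_iff₀ hr] at h1 h2
  have e : x - gp F r z = (inner ℝ F.e x - r * z.1) • F.e + (inner ℝ F.f x - r * z.2) • F.f := by
    conv_lhs => rw [F.expand x]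
    unfold gp
    rw [sub_smul, sub_smul]
    abel
  rw [e]
  refine (F.norm_comb _ _).trans ?_
  have a1 : |inner ℝ F.e x - r * z.1| ≤ r := by rw [abs_le]; constructor <;> nlinarith [h1.1, h1.2]
  have a2 : |inner ℝ F.f x - r * z.2| ≤ r := by rw [abs_le]; constructor <;> nlinarith [h2.1, h2.2]
  linarith

/-- counting grid points near a compact set -/
lemma count_bound (F : Frame) {r : ℝ} (hr : 0 < r) {C : ℝ} (_hC : 0 ≤ C) {K : Set E2}
    (hK : IsCompact K) :
    {z : ℤ × ℤ | ∃ p ∈ K, ‖p - gp F r z‖ ≤ C * r}.Finite ∧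
    (({z : ℤ × ℤ | ∃ p ∈ K, ‖p - gp F r z‖ ≤ C * r}.ncard : ℝ) * r ^ 2 ≤
      (volume (Metric.cthickening ((C + 2) * r) K)).toReal) := by
  set S := {z : ℤ × ℤ | ∃ p ∈ K, ‖p - gp F r z‖ ≤ C * r} with hS
  have hsub : ∀ z ∈ S, cell F r z ⊆ Metric.cthickening ((C + 2) * r) K := by
    rintro z ⟨p, hp, hpz⟩ x hx
    have h1 := dist_cell F hr hx
    refine Metric.mem_cthickening_of_dist_le x p _ _ hp ?_
    rw [dist_eq_norm]
    calc ‖x - p‖ = ‖(x - gp F r z) - (p - gp F r z)‖ := by congr 1; abel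
      _ ≤ ‖x - gp F r z‖ + ‖p - gp F r z‖ := norm_sub_le _ _
      _ ≤ 2 * r + C * r := add_le_add h1 hpz
      _ = (C + 2) * r := by ring
  have hfin : volume (Metric.cthickening ((C + 2) * r) K) ≠ ⊤ := by
    exact (hK.cthickening).measure_ne_top
  have hbound : ∀ t : Finset (ℤ × ℤ), (t : Set (ℤ × ℤ)) ⊆ S →
      (t.card : ℝ) * r ^ 2 ≤ (volume (Metric.cthickening ((C + 2) * r) K)).toReal := by
    intro t ht
    have h1 : volume (⋃ z ∈ t, cell F r z) = ∑ z ∈ t, volume (cell F r z) :=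
      measure_biUnion_finset (fun z _ w _ hzw => cell_disjoint F r hzw)
        (fun z _ => measurableSet_cell F r z)
    have h2 : (⋃ z ∈ t, cell F r z) ⊆ Metric.cthickening ((C + 2) * r) K :=
      Set.iUnion₂_subset fun z hz => hsub z (ht hz)
    have h3 := measure_mono (μ := volume) h2
    rw [h1] at h3
    simp only [volume_cell F r hr, Finset.sum_const, nsmul_eq_mul] at h3
    have h4 := ENNReal.toReal_mono hfin h3
    rw [ENNReal.toReal_mul, ENNReal.toReal_ofReal (by positivity)] at h4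
    simpa using h4
  have hSfin : S.Finite := by
    by_contra hinf
    have hinf' : S.Infinite := hinf
    obtain ⟨N, hN⟩ := exists_nat_gt ((volume (Metric.cthickening ((C + 2) * r) K)).toReal / r ^ 2)
    obtain ⟨t, ht, htc⟩ := hinf'.exists_subset_card_eq N
    have h1 := hbound t ht
    rw [htc] at h1
    rw [div_lt_iff₀ (by positivity)] at hN
    linarith
  refine ⟨hSfin, ?_⟩
  have := hbound hSfin.toFinset (by simp)
  rw [Set.ncard_eq_toFinset_card S hSfin]
  exact this

/-- the enlarged tile at a grid point -/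
noncomputable def mkTile (F : Frame) (V : E2 → E2) (r δ : ℝ) (hr : 0 < r) (hδ : 0 < δ)
    (z : ℤ × ℤ) : Tile where
  c := gp F r z - (1 / 2 : ℝ) • (((1 + δ) * r) • F.e + ((1 + δ) * r) • F.f)
  a := ((1 + δ) * r) • F.e
  b := ((1 + δ) * r) • F.f
  g := V (gp F r z)
  ha := by
    have h1 : (1 + δ) * r ≠ 0 := by positivity
    have h2 : F.e ≠ 0 := by
      intro h
      have := F.norm_e
      rw [h] at this
      simp at this
    exact smul_ne_zero h1 h2
  hab := by rw [norm_smul, norm_smul, F.norm_e, F.norm_f]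
  hi := by rw [inner_smul_left, inner_smul_right, F.inner_ef]; simp

lemma mkTile_mem (F : Frame) (V : E2 → E2) {r δ : ℝ} (hr : 0 < r) (hδ : 0 < δ)
    (z : ℤ × ℤ) (s : ℝ) (ξ : E2)
    (h1 : |inner ℝ F.e (ξ - gp F r z - s • V (gp F r z))| ≤ (1 + δ) * r / 2)
    (h2 : |inner ℝ F.f (ξ - gp F r z - s • V (gp F r z))| ≤ (1 + δ) * r / 2) :
    (mkTile F V r δ hr hδ z).Mem s ξ := by
  set w := ξ - gp F r z - s • V (gp F r z) with hw
  have hq : 0 < (1 + δ) * r := by positivity
  rw [abs_le] at h1 h2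
  refine ⟨inner ℝ F.e w / ((1 + δ) * r) + 1 / 2, ⟨?_, ?_⟩, inner ℝ F.f w / ((1 + δ) * r) + 1 / 2,
    ⟨?_, ?_⟩, ?_⟩
  · have : -(1/2) ≤ inner ℝ F.e w / ((1 + δ) * r) := by rw [le_div_iff₀ hq]; linarith
    linarith
  · have : inner ℝ F.e w / ((1 + δ) * r) ≤ 1/2 := by rw [div_le_iff₀ hq]; linarith
    linarith
  · have : -(1/2) ≤ inner ℝ F.f w / ((1 + δ) * r) := by rw [le_div_iff₀ hq]; linarith
    linarith
  · have : inner ℝ F.f w / ((1 + δ) * r) ≤ 1/2 := by rw [div_le_iff₀ hq]; linarith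
    linarith
  · have e1 : ξ = w + gp F r z + s • V (gp F r z) := by rw [hw]; abel
    have e2 := F.expand w
    simp only [mkTile]
    generalize (1 + δ) * r = Q at hq
    have e3 : (inner ℝ F.e w / Q + 1 / 2) * Q = inner ℝ F.e w + 1 / 2 * Q := by field_simp
    have e4 : (inner ℝ F.f w / Q + 1 / 2) * Q = inner ℝ F.f w + 1 / 2 * Q := by field_simp
    rw [smul_smul, smul_smul, e3, e4, add_smul, add_smul, smul_add, smul_smul, smul_smul]
    conv_lhs => rw [e1, e2]
    abel

lemma local_cover {V : E2 → E2} {p0 : E2} {L h : ℝ} (hL : 0 < L) {A : E2 →L[ℝ] E2}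
    (hA : HasStrictFDerivAt V A p0) (htr : LinearMap.trace ℝ _ A.toLinearMap = 0)
    (hdet1 : -(L ^ 2)⁻¹ < LinearMap.det A.toLinearMap) (hdet2 : LinearMap.det A.toLinearMap ≤ 0)
    {ε : ℝ} (hε : 0 < ε) :
    ∃ ρ > 0, ∀ K : Set E2, IsCompact K → K ⊆ Metric.closedBall p0 ρ → ∀ ε2 > 0,
      ∃ l : List Tile, Cov V L K l ∧
        (l.map (Tile.cost h)).sum ≤ (J h (V p0) + ε) * ((volume K).toReal + ε2) := by
  obtain ⟨F, b, c, hAe, hAf, hdet⟩ := exists_frame A htr
  rw [hdet] at hdet1 hdet2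
  have hbc0 : 0 ≤ b * c := by linarith
  have hL2 : 0 < L ^ 2 := by positivity
  have hbc1 : L ^ 2 * (b * c) < 1 := by
    have : b * c < (L ^ 2)⁻¹ := by linarith
    calc L ^ 2 * (b * c) < L ^ 2 * (L ^ 2)⁻¹ := mul_lt_mul_of_pos_left this hL2
      _ = 1 := mul_inv_cancel₀ hL2.ne'
  set d0 := 1 - L ^ 2 * (b * c) with hd0
  have hd0p : 0 < d0 := by linarith
  set C := (2 + L * |b| + L * |c|) / (2 * d0) with hC
  have hCp : 0 < C := by positivity
  set J0 := J h (V p0) with hJ0
  have hJ0p : 0 < J0 := J_pos _ _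
  have hJ01 : J0 ≤ 1 := J_le_one _ _
  set δ := ε / (6 + 3 * ε) with hδ
  have hδp : 0 < δ := by positivity
  have hδ1 : δ ≤ 1 := by
    rw [hδ, div_le_one (by positivity)]; linarith
  have hδJ : (1 + δ) ^ 2 * (J0 + ε / 2) ≤ J0 + ε := by
    have h1 : (1 + δ) ^ 2 ≤ 1 + 3 * δ := by nlinarith
    have h2 : 3 * δ * (1 + ε / 2) = ε / 2 := by
      rw [hδ]; field_simp; ring
    have h3 : 3 * δ * (J0 + ε / 2) ≤ 3 * δ * (1 + ε / 2) := by
      apply mul_le_mul_of_nonneg_left (by linarith) (by positivity)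
    calc (1 + δ) ^ 2 * (J0 + ε / 2) ≤ (1 + 3 * δ) * (J0 + ε / 2) :=
          mul_le_mul_of_nonneg_right h1 (by positivity)
      _ = (J0 + ε / 2) + 3 * δ * (J0 + ε / 2) := by ring
      _ ≤ (J0 + ε / 2) + ε / 2 := by linarith
      _ = J0 + ε := by ring
  set η := δ / (2 * (L * C)) with hη
  have hηp : 0 < η := by positivity
  -- strict differentiability
  obtain ⟨ρ1, hρ1, hst⟩ : ∃ ρ1 > 0, ∀ x ∈ Metric.ball p0 ρ1, ∀ y ∈ Metric.ball p0 ρ1,
      ‖V x - V y - A (x - y)‖ ≤ η * ‖x - y‖ := by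
    have h1 := hA.isLittleO.def hηp
    rw [Metric.eventually_nhds_iff_ball] at h1
    obtain ⟨ρ1, hρ1, h2⟩ := h1
    refine ⟨ρ1, hρ1, fun x hx y hy => h2 (x, y) ?_⟩
    rw [Metric.mem_ball, Prod.dist_eq]
    exact max_lt hx hy
  obtain ⟨ρ2, hρ2, hJc⟩ : ∃ ρ2 > 0, ∀ x ∈ Metric.ball p0 ρ2, J h (V x) ≤ J0 + ε / 2 := by
    have h1 : ContinuousAt (fun x => J h (V x)) p0 :=
      (continuous_J h).continuousAt.comp hA.hasFDerivAt.continuousAt
    have h2 : ∀ᶠ x in nhds p0, J h (V x) < J0 + ε / 2 := by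
      apply h1.eventually_lt continuousAt_const
      simp only [hJ0]; linarith
    rw [Metric.eventually_nhds_iff_ball] at h2
    obtain ⟨ρ2, hρ2, h3⟩ := h2
    exact ⟨ρ2, hρ2, fun x hx => (h3 x hx).le⟩
  set ρ' := min ρ1 ρ2 with hρ'
  have hρ'p : 0 < ρ' := lt_min hρ1 hρ2
  refine ⟨ρ' / 2, by positivity, fun K hK hKsub ε2 hε2 => ?_⟩
  -- choose the mesh
  have hKfin : volume K ≠ ⊤ := hK.measure_ne_top
  have hlim := tendsto_measure_cthickening_of_isCompact (μ := volume) hK
  have hev : ∀ᶠ t in nhds (0:ℝ), volume (Metric.cthickening t K) < volume K + ENNReal.ofReal ε2 := by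
    apply hlim.eventually_lt_const
    exact ENNReal.lt_add_right hKfin (by simpa using hε2)
  rw [Metric.eventually_nhds_iff_ball] at hev
  obtain ⟨τ, hτ, hev⟩ := hev
  obtain ⟨r, hr, hr1, hr2⟩ : ∃ r > 0, C * r < ρ' / 2 ∧ (C + 2) * r < τ := by
    refine ⟨min (ρ' / (4 * C)) (τ / (2 * (C + 2))), by positivity, ?_, ?_⟩
    · calc C * min (ρ' / (4 * C)) (τ / (2 * (C + 2))) ≤ C * (ρ' / (4 * C)) :=
            mul_le_mul_of_nonneg_left (min_le_left _ _) hCp.le
        _ = ρ' / 4 := by field_simp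
        _ < ρ' / 2 := by linarith
    · calc (C + 2) * min (ρ' / (4 * C)) (τ / (2 * (C + 2))) ≤ (C + 2) * (τ / (2 * (C + 2))) :=
            mul_le_mul_of_nonneg_left (min_le_right _ _) (by positivity)
        _ = τ / 2 := by field_simp
        _ < τ := by linarith
  have hvol : (volume (Metric.cthickening ((C + 2) * r) K)).toReal ≤ (volume K).toReal + ε2 := by
    have h1 := hev ((C + 2) * r) (by
      rw [Metric.mem_ball, dist_zero_right, Real.norm_of_nonneg (by positivity)]
      exact hr2)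
    have h2 := ENNReal.toReal_mono (by
      exact ENNReal.add_ne_top.2 ⟨hKfin, ENNReal.ofReal_ne_top⟩) h1.le
    rw [ENNReal.toReal_add hKfin ENNReal.ofReal_ne_top, ENNReal.toReal_ofReal hε2.le] at h2
    exact h2
  obtain ⟨hSfin, hScard⟩ := count_bound F hr hCp.le hK
  set S := {z : ℤ × ℤ | ∃ p ∈ K, ‖p - gp F r z‖ ≤ C * r} with hS
  have hgpball : ∀ z ∈ S, gp F r z ∈ Metric.ball p0 ρ' := by
    rintro z ⟨p, hp, hpz⟩
    have h1 : ‖p - p0‖ ≤ ρ' / 2 := by
      have := hKsub hp
      rwa [Metric.mem_closedBall, dist_eq_norm] at this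
    rw [Metric.mem_ball, dist_eq_norm]
    calc ‖gp F r z - p0‖ = ‖(p - p0) - (p - gp F r z)‖ := by congr 1; abel
      _ ≤ ‖p - p0‖ + ‖p - gp F r z‖ := norm_sub_le _ _
      _ < ρ' := by linarith
  refine ⟨hSfin.toFinset.toList.map (mkTile F V r δ hr hδp), ?_, ?_⟩
  · -- covering
    intro p hp s hs
    have hpball : p ∈ Metric.ball p0 ρ' := by
      have := hKsub hp
      rw [Metric.mem_closedBall] at this
      rw [Metric.mem_ball]; linarith
    have hs2 : s ^ 2 ≤ L ^ 2 := by
      rw [← sq_abs s]; exact pow_le_pow_left₀ (abs_nonneg _) hs 2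
    have hprod0 : 0 ≤ (s * c) * (s * b) := by
      have : (s * c) * (s * b) = s ^ 2 * (b * c) := by ring
      rw [this]; positivity
    have hprod1' : (s * c) * (s * b) ≤ L ^ 2 * (b * c) := by
      have : (s * c) * (s * b) = s ^ 2 * (b * c) := by ring
      rw [this]; exact mul_le_mul_of_nonneg_right hs2 hbc0
    have hprod1 : (s * c) * (s * b) < 1 := lt_of_le_of_lt hprod1' hbc1
    set X := inner ℝ F.e p with hX
    set Y := inner ℝ F.f p with hY
    obtain ⟨m, n, hm, hn⟩ := exists_int_pair (s * c) (s * b) ((X + s * b * Y) / r)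
      ((s * c * X + Y) / r) hprod0 hprod1
    set u := X - r * m with hu
    set v := Y - r * n with hv
    have hW1 : |u + s * b * v| ≤ r / 2 := by
      have e : u + s * b * v = r * ((X + s * b * Y) / r - (m + s * b * n)) := by
        rw [hu, hv]; field_simp; ring
      rw [e, abs_mul, abs_of_pos hr]
      nlinarith
    have hW2 : |s * c * u + v| ≤ r / 2 := by
      have e : s * c * u + v = r * ((s * c * X + Y) / r - (s * c * m + n)) := by
        rw [hu, hv]; field_simp; ring
      rw [e, abs_mul, abs_of_pos hr]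
      nlinarith
    have hdd : d0 ≤ 1 - (s * c) * (s * b) := by rw [hd0]; linarith
    have hub : |u| ≤ (1 + L * |b|) * (r / 2) / d0 := by
      rw [le_div_iff₀ hd0p]
      have e : u * (1 - (s * c) * (s * b)) = (u + s * b * v) - s * b * (s * c * u + v) := by ring
      have h1 : |u| * (1 - (s * c) * (s * b)) = |(u + s * b * v) - s * b * (s * c * u + v)| := by
        rw [← e, abs_mul, abs_of_pos (by linarith : 0 < 1 - (s * c) * (s * b))]
      have h2 : |(u + s * b * v) - s * b * (s * c * u + v)| ≤ r / 2 + L * |b| * (r / 2) := by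
        refine (abs_sub _ _).trans (add_le_add hW1 ?_)
        rw [abs_mul, abs_mul]
        gcongr
      calc |u| * d0 ≤ |u| * (1 - (s * c) * (s * b)) := mul_le_mul_of_nonneg_left hdd (abs_nonneg _)
        _ ≤ r / 2 + L * |b| * (r / 2) := by rw [h1]; exact h2
        _ = _ := by ring
    have hvb : |v| ≤ (1 + L * |c|) * (r / 2) / d0 := by
      rw [le_div_iff₀ hd0p]
      have e : v * (1 - (s * c) * (s * b)) = (s * c * u + v) - s * c * (u + s * b * v) := by ring
      have h1 : |v| * (1 - (s * c) * (s * b)) = |(s * c * u + v) - s * c * (u + s * b * v)| := by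
        rw [← e, abs_mul, abs_of_pos (by linarith : 0 < 1 - (s * c) * (s * b))]
      have h2 : |(s * c * u + v) - s * c * (u + s * b * v)| ≤ r / 2 + L * |c| * (r / 2) := by
        refine (abs_sub _ _).trans (add_le_add hW2 ?_)
        rw [abs_mul, abs_mul]
        gcongr
      calc |v| * d0 ≤ |v| * (1 - (s * c) * (s * b)) := mul_le_mul_of_nonneg_left hdd (abs_nonneg _)
        _ ≤ r / 2 + L * |c| * (r / 2) := by rw [h1]; exact h2
        _ = _ := by ring
    set G := gp F r (m, n) with hG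
    have hpG : p - G = u • F.e + v • F.f := by
      conv_lhs => rw [F.expand p]
      simp only [hG, gp, hu, hv, sub_smul]
      abel
    have hnorm : ‖p - G‖ ≤ C * r := by
      rw [hpG]
      refine (F.norm_comb _ _).trans ?_
      calc |u| + |v| ≤ (1 + L * |b|) * (r / 2) / d0 + (1 + L * |c|) * (r / 2) / d0 :=
            add_le_add hub hvb
        _ = C * r := by rw [hC]; field_simp; ring
    have hzS : ((m, n) : ℤ × ℤ) ∈ S := ⟨p, hp, hnorm⟩
    refine ⟨mkTile F V r δ hr hδp (m, n), ?_, ?_⟩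
    · rw [List.mem_map]
      exact ⟨(m, n), by simpa using hzS, rfl⟩
    · set Err := V p - V G - A (p - G) with hErr
      have hErrn : ‖Err‖ ≤ η * (C * r) := by
        have h1 := hst p (Metric.ball_subset_ball (min_le_left _ _) hpball) G
          (Metric.ball_subset_ball (min_le_left _ _) (hgpball _ hzS))
        exact h1.trans (mul_le_mul_of_nonneg_left hnorm hηp.le)
      have hLerr : L * (η * (C * r)) = δ * r / 2 := by
        rw [hη]; field_simp
      have hw : p + s • V p - G - s • V G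
          = (u + s * b * v) • F.e + (s * c * u + v) • F.f + s • Err := by
        have e1 : V p = Err + V G + A (p - G) := by rw [hErr]; abel
        have e2 : A (p - G) = (v * b) • F.e + (u * c) • F.f := by
          rw [hpG, map_add, map_smul, map_smul, hAe, hAf, smul_smul, smul_smul]; abel
        have e3 : p + s • V p - G - s • V G = (p - G) + s • (V p - V G) := by
          rw [smul_sub]; abel
        have e4 : V p - V G = Err + A (p - G) := by rw [hErr]; abel
        rw [e3, e4, e2, hpG, smul_add, smul_add, smul_smul, smul_smul]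
        simp only [add_smul]
        have e5 : s * (v * b) = s * b * v := by ring
        have e6 : s * (u * c) = s * c * u := by ring
        rw [e5, e6]
        abel
      have hfe : inner ℝ F.f F.e = 0 := by rw [real_inner_comm]; exact F.inner_ef
      have hsErr : ‖s • Err‖ ≤ δ * r / 2 := by
        rw [norm_smul, Real.norm_eq_abs, ← hLerr]
        exact mul_le_mul hs hErrn (norm_nonneg _) hL.le
      have hin1 : |inner ℝ F.e (s • Err)| ≤ δ * r / 2 := by
        refine (abs_real_inner_le_norm _ _).trans ?_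
        rw [F.norm_e, one_mul]; exact hsErr
      have hin2 : |inner ℝ F.f (s • Err)| ≤ δ * r / 2 := by
        refine (abs_real_inner_le_norm _ _).trans ?_
        rw [F.norm_f, one_mul]; exact hsErr
      apply mkTile_mem
      · rw [← hG, hw, inner_add_right, inner_add_right, inner_smul_right (𝕜 := ℝ) F.e F.e,
          inner_smul_right (𝕜 := ℝ) F.e F.f, F.inner_ef, real_inner_self_eq_norm_sq, F.norm_e]
        have : (u + s * b * v) * 1 ^ 2 + (s * c * u + v) * 0 + inner ℝ F.e (s • Err)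
            = (u + s * b * v) + inner ℝ F.e (s • Err) := by ring
        rw [this]
        refine (abs_add_le _ _).trans ?_
        linarith
      · rw [← hG, hw, inner_add_right, inner_add_right, inner_smul_right (𝕜 := ℝ) F.f F.e,
          inner_smul_right (𝕜 := ℝ) F.f F.f, hfe, real_inner_self_eq_norm_sq, F.norm_f]
        have : (u + s * b * v) * 0 + (s * c * u + v) * 1 ^ 2 + inner ℝ F.f (s • Err)
            = (s * c * u + v) + inner ℝ F.f (s • Err) := by ring
        rw [this]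
        refine (abs_add_le _ _).trans ?_
        linarith
  · -- cost
    rw [List.map_map]
    have h1 : ∀ x ∈ hSfin.toFinset.toList.map (Tile.cost h ∘ mkTile F V r δ hr hδp),
        x ≤ ((1 + δ) * r) ^ 2 * (J0 + ε / 2) := by
      intro x hx
      rw [List.mem_map] at hx
      obtain ⟨z, hz, rfl⟩ := hx
      have hzS : z ∈ S := by simpa using hz
      have h2 : Tile.cost h (mkTile F V r δ hr hδp z) = ((1 + δ) * r) ^ 2 * J h (V (gp F r z)) := by
        simp only [Tile.cost, mkTile]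
        rw [norm_smul, F.norm_e, mul_one, Real.norm_of_nonneg (by positivity)]
      simp only [Function.comp]
      rw [h2]
      apply mul_le_mul_of_nonneg_left _ (by positivity)
      exact hJc _ (Metric.ball_subset_ball (min_le_right _ _) (hgpball z hzS))
    have h2 := List.sum_le_card_nsmul _ _ h1
    refine h2.trans ?_
    rw [List.length_map, Finset.length_toList, nsmul_eq_mul, ← Set.ncard_eq_toFinset_card S hSfin]
    calc (S.ncard : ℝ) * (((1 + δ) * r) ^ 2 * (J0 + ε / 2))
        = ((1 + δ) ^ 2 * (J0 + ε / 2)) * (S.ncard * r ^ 2) := by ring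
      _ ≤ (J0 + ε) * (S.ncard * r ^ 2) := mul_le_mul_of_nonneg_right hδJ (by positivity)
      _ ≤ (J0 + ε) * ((volume K).toReal + ε2) := by
          apply mul_le_mul_of_nonneg_left (hScard.trans hvol) (by linarith)

end Crest.Agent.Row211.Ruled
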