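import Crest.Agent.Row211.Area

/-! helper27: geometry for S0328 (radial sweep, triangular cylinder covers). -/

set_option autoImplicit false

open MeasureTheory Set
open scoped ENNReal

namespace Crest.Agent.Row211.Sweep

/-! ### displacement of the axis -/

theorem disp {a b : E3} {α β : ℝ} (hαβ : α < β) {w : ℝ → E3} {lam : ℝ → ℝ}
    (hlam : ContinuousOn lam (Icc α β))
    (hw' : ∀ t ∈ Icc α β, HasDerivWithinAt w (lam t • (a + t • b)) (Icc α β) t) :
    ∃ (Λ M : ℝ → ℝ) (C : ℝ), 0 ≤ C ∧ ∀ τ ∈ Icc α β, ∀ c ∈ Icc α β,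
      w τ - w c = (Λ τ - Λ c) • a + (M τ - M c) • b ∧ |Λ τ - Λ c| ≤ C * |τ - c| ∧
      |(M τ - M c) - τ * (Λ τ - Λ c)| ≤ C * |τ - c| * |τ - c| := by
  set ℓ : ℝ → ℝ := IccExtend hαβ.le ((Icc α β).domRestrict lam) with hℓ
  have hℓc : Continuous ℓ := (continuousOn_iff_continuous_domRestrict.1 hlam).Icc_extend'
  have hℓe : ∀ t ∈ Icc α β, ℓ t = lam t := by
    intro t ht
    rw [hℓ, IccExtend_of_mem _ _ ht]; rfl
  obtain ⟨C, hC⟩ := isCompact_Icc.exists_bound_of_continuousOn hlam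
  have hCb : ∀ t ∈ Icc α β, |ℓ t| ≤ C := fun t ht => by
    rw [hℓe t ht]; exact hC t ht
  have hC0 : 0 ≤ C := (abs_nonneg _).trans (hCb α ⟨le_refl _, hαβ.le⟩)
  have hmc : Continuous fun v : ℝ => v * ℓ v := continuous_id.mul hℓc
  have hΛd : ∀ t, HasDerivAt (fun t => ∫ v in α..t, ℓ v) (ℓ t) t := fun t =>
    intervalIntegral.integral_hasDerivAt_right (hℓc.intervalIntegrable _ _)
      (hℓc.stronglyMeasurableAtFilter _ _) hℓc.continuousAt
  have hMd : ∀ t, HasDerivAt (fun t => ∫ v in α..t, v * ℓ v) (t * ℓ t) t := fun t =>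
    intervalIntegral.integral_hasDerivAt_right (hmc.intervalIntegrable _ _)
      (hmc.stronglyMeasurableAtFilter _ _) hmc.continuousAt
  set F : ℝ → E3 := fun t => w t - (∫ v in α..t, ℓ v) • a - (∫ v in α..t, v * ℓ v) • b with hF
  have hFd : ∀ t ∈ Icc α β, HasDerivWithinAt F 0 (Icc α β) t := by
    intro t ht
    have h1 := ((hw' t ht).sub ((hΛd t).hasDerivWithinAt.smul_const a)).sub
      ((hMd t).hasDerivWithinAt.smul_const b)
    refine h1.congr_deriv ?_
    rw [hℓe t ht, smul_add, smul_smul, mul_comm t]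
    abel
  have hFc : ∀ x ∈ Icc α β, F x = F α := by
    apply constant_of_derivWithin_zero
    · intro t ht; exact (hFd t ht).differentiableWithinAt
    · intro t ht
      exact (hFd t (Ico_subset_Icc_self ht)).derivWithin
        ((uniqueDiffOn_Icc hαβ) t (Ico_subset_Icc_self ht))
  refine ⟨fun t => ∫ v in α..t, ℓ v, fun t => ∫ v in α..t, v * ℓ v, C, hC0, ?_⟩
  intro τ hτ c hc
  have hsub : uIoc c τ ⊆ Icc α β := by
    intro v hv
    rw [uIoc, mem_Ioc] at hv
    exact ⟨(le_min hc.1 hτ.1).trans hv.1.le, hv.2.trans (max_le hc.2 hτ.2)⟩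
  have i1 : (∫ v in α..τ, ℓ v) - (∫ v in α..c, ℓ v) = ∫ v in c..τ, ℓ v :=
    intervalIntegral.integral_interval_sub_left (hℓc.intervalIntegrable _ _)
      (hℓc.intervalIntegrable _ _)
  have i2 : (∫ v in α..τ, v * ℓ v) - (∫ v in α..c, v * ℓ v) = ∫ v in c..τ, v * ℓ v :=
    intervalIntegral.integral_interval_sub_left (hmc.intervalIntegrable _ _)
      (hmc.intervalIntegrable _ _)
  refine ⟨?_, ?_, ?_⟩
  · have h1 := (hFc τ hτ).trans (hFc c hc).symm
    simp only [hF] at h1
    have h2 : w τ - w c = ((w τ - (∫ v in α..τ, ℓ v) • a - (∫ v in α..τ, v * ℓ v) • b) -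
      (w c - (∫ v in α..c, ℓ v) • a - (∫ v in α..c, v * ℓ v) • b)) +
      (((∫ v in α..τ, ℓ v) - ∫ v in α..c, ℓ v) • a +
        ((∫ v in α..τ, v * ℓ v) - ∫ v in α..c, v * ℓ v) • b) := by
      rw [sub_smul, sub_smul]; abel
    rw [h2, h1, sub_self, zero_add]
  · simp only
    rw [i1]
    have := intervalIntegral.norm_integral_le_of_norm_le_const (a := c) (b := τ) (f := ℓ) (C := C)
      (fun v hv => hCb v (hsub hv))
    rw [Real.norm_eq_abs] at this
    exact this
  · simp only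
    rw [i1, i2]
    have e : (∫ v in c..τ, v * ℓ v) - τ * (∫ v in c..τ, ℓ v) = ∫ v in c..τ, (v - τ) * ℓ v := by
      have hi1 : IntervalIntegrable (fun v => v * ℓ v) volume c τ := hmc.intervalIntegrable _ _
      have hi2 : IntervalIntegrable (fun v => τ * ℓ v) volume c τ :=
        (continuous_const.mul hℓc).intervalIntegrable _ _
      rw [← intervalIntegral.integral_const_mul, ← intervalIntegral.integral_sub hi1 hi2]
      congr 1
      funext v; ring
    rw [e]
    have := intervalIntegral.norm_integral_le_of_norm_le_const (a := c) (b := τ)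
      (f := fun v => (v - τ) * ℓ v) (C := C * |τ - c|) (fun v hv => by
        rw [Real.norm_eq_abs, abs_mul, mul_comm C]
        apply mul_le_mul _ (hCb v (hsub hv)) (abs_nonneg _) (abs_nonneg _)
        rw [uIoc, mem_Ioc] at hv
        rcases le_total c τ with h | h
        · rw [min_eq_left h, max_eq_right h] at hv
          rw [abs_of_nonpos (by linarith [hv.2]), abs_of_nonneg (by linarith)]
          linarith [hv.1]
        · rw [min_eq_right h, max_eq_left h] at hv
          rw [abs_of_nonneg (by linarith [hv.1]), abs_of_nonpos (by linarith)]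
          linarith [hv.2])
    rw [Real.norm_eq_abs] at this
    exact this

/-! ### projection along `d` -/

/-- Projection along `d` onto the orthogonal complement. -/
noncomputable def Pr (d y : E3) : E3 := y - (inner ℝ y d / ‖d‖ ^ 2) • d

theorem Pr_eq_proj {d : E3} (hd : d ≠ 0) (y : E3) : Pr d y = proj (‖d‖⁻¹ • d) y := by
  have hn : ‖d‖ ≠ 0 := norm_ne_zero_iff.2 hd
  rw [Pr, proj, inner_smul_right, smul_smul]
  congr 2
  field_simp

theorem inner_Pr {d : E3} (hd : d ≠ 0) (y : E3) : inner ℝ (Pr d y) d = 0 := by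
  have hn : ‖d‖ ≠ 0 := norm_ne_zero_iff.2 hd
  rw [Pr, inner_sub_left, inner_smul_left, real_inner_self_eq_norm_sq]
  simp
  field_simp
  simp

/-- linear version -/
noncomputable def PrL (d : E3) : E3 →ₗ[ℝ] E3 where
  toFun := Pr d
  map_add' x y := by
    simp only [Pr, inner_add_left, add_div, add_smul]; abel
  map_smul' c x := by
    simp only [Pr, inner_smul_left, smul_sub, smul_smul, RingHom.id_apply]
    congr 2
    simp; ring

theorem PrL_apply (d y : E3) : PrL d y = Pr d y := rfl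

theorem norm_unit {d : E3} (hd : d ≠ 0) : ‖‖d‖⁻¹ • d‖ = 1 := by
  rw [norm_smul, norm_inv, norm_norm]
  exact inv_mul_cancel₀ (norm_ne_zero_iff.2 hd)

theorem det3_comb (a b u : E3) (x1 y1 x2 y2 : ℝ) :
    det3 (x1 • a + y1 • b) (x2 • a + y2 • b) u = (x1 * y2 - x2 * y1) * det3 a b u := by
  simp only [det3, PiLp.add_apply, PiLp.smul_apply, smul_eq_mul]
  ring

theorem det3_smul_right (a b u : E3) (c : ℝ) : det3 a b (c • u) = c * det3 a b u := by
  simp only [det3, PiLp.smul_apply, smul_eq_mul]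
  ring

theorem det3_add_right (a b u v : E3) : det3 a b (u + v) = det3 a b u + det3 a b v := by
  simp only [det3, PiLp.add_apply]
  ring

theorem det3_mul_det3 (a b w e : E3) :
    det3 a b w * det3 a b e =
      inner ℝ a a * (inner ℝ b b * inner ℝ w e - inner ℝ b e * inner ℝ w b) -
      inner ℝ a b * (inner ℝ b a * inner ℝ w e - inner ℝ b e * inner ℝ w a) +
      inner ℝ a e * (inner ℝ b a * inner ℝ w b - inner ℝ b b * inner ℝ w a) := by
  simp only [inner3, det3]
  ring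

section

variable {e a b : E3} (he : ‖e‖ = 1) (ha : inner ℝ a e = 0) (hb : inner ℝ b e = 0)
  (hab : LinearIndependent ℝ ![a, b])

include he ha hb in
theorem det3_abe_sq : det3 a b e ^ 2 = ‖a‖ ^ 2 * ‖b‖ ^ 2 - inner ℝ a b ^ 2 := by
  have h := gram_proj he a b
  rw [← h]
  have e1 : proj e a = a := by rw [proj, ha, zero_smul, sub_zero]
  have e2 : proj e b = b := by rw [proj, hb, zero_smul, sub_zero]
  rw [e1, e2]

include hab in
theorem kappa_sq_pos : 0 < ‖a‖ ^ 2 * ‖b‖ ^ 2 - inner ℝ a b ^ 2 := by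
  have ha0 : a ≠ 0 := by
    have := hab.ne_zero 0
    simpa using this
  have ha2 : 0 < ‖a‖ ^ 2 := by positivity
  have h1 : b - (inner ℝ a b / ‖a‖ ^ 2) • a ≠ 0 := by
    intro h
    have := LinearIndependent.pair_iff.1 hab (-(inner ℝ a b / ‖a‖ ^ 2)) 1 (by
      rw [neg_smul, one_smul, add_comm, ← sub_eq_add_neg]; exact h)
    exact one_ne_zero this.2
  have h2 : 0 < ‖b - (inner ℝ a b / ‖a‖ ^ 2) • a‖ ^ 2 := by positivity
  have h3 : ‖b - (inner ℝ a b / ‖a‖ ^ 2) • a‖ ^ 2 = ‖b‖ ^ 2 - inner ℝ a b ^ 2 / ‖a‖ ^ 2 := by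
    rw [← real_inner_self_eq_norm_sq, inner_sub_left, inner_sub_right, inner_sub_right,
      inner_smul_left, inner_smul_right, inner_smul_left, inner_smul_right,
      real_inner_self_eq_norm_sq, real_inner_self_eq_norm_sq, real_inner_comm a b]
    simp
    field_simp
    ring
  rw [h3] at h2
  have h4 : 0 < ‖a‖ ^ 2 * (‖b‖ ^ 2 - inner ℝ a b ^ 2 / ‖a‖ ^ 2) := mul_pos ha2 h2
  have h5 : ‖a‖ ^ 2 * (‖b‖ ^ 2 - inner ℝ a b ^ 2 / ‖a‖ ^ 2) =
    ‖a‖ ^ 2 * ‖b‖ ^ 2 - inner ℝ a b ^ 2 := by field_simp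
  linarith

include he ha hb hab in
theorem det3_abw {w : E3} (hw : inner ℝ w e = 0) : det3 a b w = 0 := by
  have h1 := det3_mul_det3 a b w e
  rw [hw, ha, hb] at h1
  have h2 : det3 a b w * det3 a b e = 0 := by rw [h1]; ring
  have h3 : det3 a b e ≠ 0 := by
    intro h
    have := det3_abe_sq he ha hb
    rw [h] at this
    have h4 := kappa_sq_pos hab
    rw [← this] at h4
    simp at h4
  exact (mul_eq_zero.1 h2).resolve_right h3

include he in
theorem d_ne_zero {w : E3} (hw : inner ℝ w e = 0) : e + w ≠ 0 := by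
  intro h
  have h1 : inner ℝ (e + w) e = (0 : ℝ) := by rw [h, inner_zero_left]
  rw [inner_add_left, hw, real_inner_self_eq_norm_sq, he] at h1
  norm_num at h1

include he in
theorem norm_d {w : E3} (hw : inner ℝ w e = 0) : ‖e + w‖ = Real.sqrt (1 + ‖w‖ ^ 2) := by
  have h : ‖e + w‖ ^ 2 = 1 + ‖w‖ ^ 2 := by
    have hw2 : inner ℝ e w = (0 : ℝ) := by rw [real_inner_comm]; exact hw
    rw [← real_inner_self_eq_norm_sq, inner_add_left, inner_add_right, inner_add_right,
      hw, hw2, real_inner_self_eq_norm_sq, real_inner_self_eq_norm_sq, he]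
    ring
  rw [← h, Real.sqrt_sq (norm_nonneg _)]

include he ha hb hab in
/-- area of a projected triangle with vertices in the plane `p + span(a,b)`. -/
theorem area_Pr {w : E3} (hw : inner ℝ w e = 0) (p : E3) (x1 y1 x2 y2 : ℝ) :
    μHE[2] (convexHull ℝ ({Pr (e + w) p, Pr (e + w) (p + (x1 • a + y1 • b)),
      Pr (e + w) (p + (x2 • a + y2 • b))} : Set E3)) =
    ENNReal.ofReal (|x1 * y2 - x2 * y1| *
      (Real.sqrt (‖a‖ ^ 2 * ‖b‖ ^ 2 - inner ℝ a b ^ 2) / (2 * Real.sqrt (1 + ‖w‖ ^ 2)))) := by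
  have hd := d_ne_zero he hw
  rw [Pr_eq_proj hd, Pr_eq_proj hd, Pr_eq_proj hd, area_proj_triangle (norm_unit hd)]
  congr 1
  rw [add_sub_cancel_left, add_sub_cancel_left, det3_comb, det3_smul_right, det3_add_right,
    det3_abw he ha hb hab hw, add_zero, abs_mul, abs_mul, ← norm_d he hw, abs_inv, abs_norm]
  rw [← det3_abe_sq he ha hb, Real.sqrt_sq_eq_abs]
  have hn : ‖e + w‖ ≠ 0 := norm_ne_zero_iff.2 hd
  field_simp

end

/-! ### planar geometry -/

theorem planar {t0 t1 c τ h C L s Λ M ρ Rm ε K K' X Y H : ℝ} (hc0 : t0 ≤ c) (hc1 : c ≤ t1)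
    (hτ0 : t0 ≤ τ) (hτ1 : τ ≤ t1) (hh : h = t1 - t0) (hh0 : 0 < h) (hC : 0 ≤ C) (hL : 0 ≤ L)
    (hs : |s| ≤ L) (hΛ : |Λ| ≤ C * |τ - c|) (hM : |M - τ * Λ| ≤ C * |τ - c| * |τ - c|)
    (hρ0 : 0 ≤ ρ) (hρ1 : ρ ≤ Rm) (hε : 0 < ε) (hK : K = L * C) (hK' : K' = K + 2 * K / ε + 1)
    (hX : X = ρ + s * Λ) (hY : Y = ρ * τ + s * M) (hH : H = K' * h) :
    0 ≤ X + H ∧ X + H ≤ Rm + K * h + H ∧ (t0 - ε * h) * (X + H) ≤ Y + c * H ∧
      Y + c * H ≤ (t1 + ε * h) * (X + H) := by
  have hK0 : 0 ≤ K := by rw [hK]; positivity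
  have hK'K : 2 * K + ε = ε * (K' - K) := by rw [hK']; field_simp; ring
  have hK'0 : 0 ≤ K' := by rw [hK']; positivity
  have hH0 : 0 ≤ H := by rw [hH]; positivity
  have hd : |τ - c| ≤ h := by rw [abs_le]; constructor <;> linarith
  have hΛ' : |s * Λ| ≤ K * h := by
    rw [abs_mul, hK, mul_assoc]
    exact mul_le_mul hs (hΛ.trans (mul_le_mul_of_nonneg_left hd hC)) (abs_nonneg _) hL
  have hE : |s * (M - τ * Λ)| ≤ K * h * h := by
    rw [abs_mul, hK, mul_assoc, mul_assoc]
    refine mul_le_mul hs (hM.trans ?_) (abs_nonneg _) hL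
    rw [mul_assoc]
    exact mul_le_mul_of_nonneg_left (mul_le_mul hd hd (abs_nonneg _) hh0.le) hC
  have h1 := abs_le.1 hΛ'
  have h2 := abs_le.1 hE
  have hXl : -(K * h) ≤ X := by rw [hX]; linarith [h1.1]
  have hXu : X ≤ Rm + K * h := by rw [hX]; linarith [h1.2]
  have hU : (K' - K) * h ≤ X + H := by rw [hH]; linarith
  have hU0 : 0 < X + H := by
    have : 0 < (K' - K) * h := by
      apply mul_pos _ hh0
      have : 0 < ε * (K' - K) := by rw [← hK'K]; positivity
      exact pos_of_mul_pos_right this hε.le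
    linarith
  have hεU : 2 * K * h ≤ ε * (X + H) := by
    have := mul_le_mul_of_nonneg_left hU hε.le
    have h3 : ε * ((K' - K) * h) = 2 * K * h + ε * h := by rw [← mul_assoc, ← hK'K]; ring
    have h4 : 0 < ε * h := mul_pos hε hh0
    linarith
  have hεU' : 2 * (K * h * h) ≤ ε * h * (X + H) := by
    have h5 := mul_le_mul_of_nonneg_right hεU hh0.le
    have e1 : 2 * K * h * h = 2 * (K * h * h) := by ring
    have e2 : ε * (X + H) * h = ε * h * (X + H) := by ring
    rw [e1, e2] at h5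
    exact h5
  have key : Y - c * X = X * (τ - c) + s * (M - τ * Λ) := by rw [hX, hY]; ring
  have hKhh : 0 ≤ K * h * h := by positivity
  have hup : X * (τ - c) ≤ (X + H) * (t1 - c) + K * h * h := by
    rcases le_total c τ with g | g
    · rcases le_total 0 X with x | x
      · have : X * (τ - c) ≤ (X + H) * (t1 - c) :=
          mul_le_mul (by linarith) (by linarith) (by linarith) hU0.le
        linarith
      · have : X * (τ - c) ≤ 0 := mul_nonpos_of_nonpos_of_nonneg x (by linarith)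
        have : 0 ≤ (X + H) * (t1 - c) := mul_nonneg hU0.le (by linarith)
        linarith
    · have : 0 ≤ (X + H) * (t1 - c) := mul_nonneg hU0.le (by linarith)
      have : X * (τ - c) = (-X) * (c - τ) := by ring
      have : (-X) * (c - τ) ≤ (K * h) * h := by
        rcases le_total 0 X with x | x
        · have : (-X) * (c - τ) ≤ 0 := mul_nonpos_of_nonpos_of_nonneg (by linarith) (by linarith)
          linarith
        · exact mul_le_mul (by linarith) (by linarith [(abs_le.1 hd).1]) (by linarith)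
            (by positivity)
      linarith
  have hlo : -((X + H) * (c - t0)) - K * h * h ≤ X * (τ - c) := by
    rcases le_total τ c with g | g
    · rcases le_total 0 X with x | x
      · have : X * (c - τ) ≤ (X + H) * (c - t0) :=
          mul_le_mul (by linarith) (by linarith) (by linarith) hU0.le
        have e : X * (τ - c) = -(X * (c - τ)) := by ring
        linarith
      · have : 0 ≤ X * (τ - c) := mul_nonneg_of_nonpos_of_nonpos x (by linarith)
        have : 0 ≤ (X + H) * (c - t0) := mul_nonneg hU0.le (by linarith)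
        linarith
    · have : 0 ≤ (X + H) * (c - t0) := mul_nonneg hU0.le (by linarith)
      have : (-X) * (τ - c) ≤ (K * h) * h := by
        rcases le_total 0 X with x | x
        · have : (-X) * (τ - c) ≤ 0 := mul_nonpos_of_nonpos_of_nonneg (by linarith) (by linarith)
          linarith
        · exact mul_le_mul (by linarith) (by linarith [(abs_le.1 hd).2]) (by linarith)
            (by positivity)
      have e : X * (τ - c) = -((-X) * (τ - c)) := by ring
      linarith
  have e1 : Y + c * H = (Y - c * X) + c * (X + H) := by ring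
  refine ⟨hU0.le, by linarith, ?_, ?_⟩
  · rw [e1, key]
    have e2 : (t0 - ε * h) * (X + H) = c * (X + H) - (X + H) * (c - t0) - ε * h * (X + H) := by ring
    rw [e2]; linarith [h2.1]
  · rw [e1, key]
    have e2 : (t1 + ε * h) * (X + H) = c * (X + H) + (X + H) * (t1 - c) + ε * h * (X + H) := by ring
    rw [e2]; linarith [h2.2]

theorem tri_coords {u v W σ1 σ2 : ℝ} (hW : 0 < W) (hσ : σ1 < σ2) (hu1 : u ≤ W)
    (h1 : σ1 * u ≤ v) (h2 : v ≤ σ2 * u) : ∃ x y : ℝ, 0 ≤ x ∧ 0 ≤ y ∧ x + y ≤ 1 ∧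
      u = (x + y) * W ∧ v = (x * σ1 + y * σ2) * W := by
  have hd : 0 < σ2 - σ1 := by linarith
  refine ⟨(σ2 * u - v) / (W * (σ2 - σ1)), (v - σ1 * u) / (W * (σ2 - σ1)),
    div_nonneg (by linarith) (by positivity), div_nonneg (by linarith) (by positivity), ?_, ?_, ?_⟩
  · rw [← add_div, div_le_one (by positivity)]
    nlinarith
  · field_simp; ring
  · field_simp; ring

/-! ### one piece -/

theorem LinearIndependent.congr_fun' {ι : Type} {f g : ι → E3} (hf : LinearIndependent ℝ f)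
    (h : ∀ i, g i = f i) : LinearIndependent ℝ g := by
  rwa [funext h]

/-- the piece of the sweep -/
def Piece (e a b p₀ : E3) (w : ℝ → E3) (R : ℝ → ℝ) (L t0 t1 : ℝ) : Set E3 :=
  {x | ∃ τ ∈ Icc t0 t1, ∃ ρ ∈ Icc 0 (R τ), ∃ s : ℝ, abs s ≤ L ∧
    x = p₀ + ρ • (a + τ • b) + s • (e + w τ)}

theorem Pr_add (d x y : E3) : Pr d (x + y) = Pr d x + Pr d y := (PrL d).map_add x y
theorem Pr_sub (d x y : E3) : Pr d (x - y) = Pr d x - Pr d y := (PrL d).map_sub x y
theorem Pr_smul (d x : E3) (c : ℝ) : Pr d (c • x) = c • Pr d x := (PrL d).map_smul c x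

theorem Pr_self {d : E3} (hd : d ≠ 0) : Pr d d = 0 := by
  have hn : ‖d‖ ≠ 0 := norm_ne_zero_iff.2 hd
  rw [Pr, real_inner_self_eq_norm_sq, div_self (by positivity), one_smul, sub_self]

theorem Pr_decomp (d x : E3) : x = Pr d x + (inner ℝ x d / ‖d‖ ^ 2) • d := by
  rw [Pr]; abel

section

variable {e a b p₀ : E3} (he : ‖e‖ = 1) (ha : inner ℝ a e = 0) (hb : inner ℝ b e = 0)
  (hab : LinearIndependent ℝ ![a, b])

/-- area factor -/
noncomputable def gf (a b w : E3) : ℝ :=
  Real.sqrt (‖a‖ ^ 2 * ‖b‖ ^ 2 - inner ℝ a b ^ 2) / (2 * Real.sqrt (1 + ‖w‖ ^ 2))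

theorem gf_nonneg (a b w : E3) : 0 ≤ gf a b w := by unfold gf; positivity

include he ha hb hab in
theorem piece_cover {w : ℝ → E3} {R : ℝ → ℝ} {L t0 t1 c C Rm ε : ℝ}
    (hL : 0 ≤ L) (hC : 0 ≤ C) (hε : 0 < ε) (hRm : 0 ≤ Rm) (h01 : t0 < t1) (hc0 : t0 ≤ c)
    (hc1 : c ≤ t1) (hwc : inner ℝ (w c) e = 0)
    (hR : ∀ τ ∈ Icc t0 t1, R τ ≤ Rm)
    (hdisp : ∀ τ ∈ Icc t0 t1, ∃ Λ M : ℝ, w τ - w c = Λ • a + M • b ∧ |Λ| ≤ C * |τ - c| ∧
      |M - τ * Λ| ≤ C * |τ - c| * |τ - c|) :
    ∃ p q r : E3, (inner ℝ p (e + w c) = 0 ∧ inner ℝ q (e + w c) = 0 ∧ inner ℝ r (e + w c) = 0) ∧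
      AffineIndependent ℝ ![p, q, r] ∧
      (∀ x ∈ Piece e a b p₀ w R L t0 t1, Pr (e + w c) x ∈ convexHull ℝ ({p, q, r} : Set E3)) ∧
      μHE[2] (convexHull ℝ ({p, q, r} : Set E3)) = ENNReal.ofReal
        ((Rm + (L * C) * (t1 - t0) + (L * C + 2 * (L * C) / ε + 1) * (t1 - t0)) ^ 2 *
          ((1 + 2 * ε) * (t1 - t0)) * gf a b (w c)) := by
  set h := t1 - t0 with hh
  have hh0 : 0 < h := by rw [hh]; linarith
  set K := L * C with hK
  have hK0 : 0 ≤ K := by rw [hK]; positivity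
  set K' := K + 2 * K / ε + 1 with hK'
  have hK'0 : 0 < K' := by rw [hK']; positivity
  set H := K' * h with hH
  set W := Rm + K * h + H with hWdef
  have hW0 : 0 < W := by rw [hWdef, hH]; positivity
  set σ1 := t0 - ε * h with hσ1
  set σ2 := t1 + ε * h with hσ2
  have hσd : σ2 - σ1 = (1 + 2 * ε) * h := by rw [hσ1, hσ2, hh]; ring
  have hσ : σ1 < σ2 := by
    have : 0 < (1 + 2 * ε) * h := by positivity
    linarith
  set d := e + w c with hd
  have hd0 : d ≠ 0 := d_ne_zero he hwc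
  set v0 : E3 := p₀ - H • a - (c * H) • b with hv0
  refine ⟨Pr d v0, Pr d (v0 + (W • a + (W * σ1) • b)), Pr d (v0 + (W • a + (W * σ2) • b)),
    ⟨inner_Pr hd0 _, inner_Pr hd0 _, inner_Pr hd0 _⟩, ?_, ?_, ?_⟩
  · -- affine independence
    have key : ∀ x y : ℝ, Pr d (x • a + y • b) = 0 → x = 0 ∧ y = 0 := by
      intro x y hxy
      have h1 : x • a + y • b = (inner ℝ (x • a + y • b) d / ‖d‖ ^ 2) • d := by
        have := Pr_decomp d (x • a + y • b)
        rw [hxy, zero_add] at this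
        exact this
      set μ := inner ℝ (x • a + y • b) d / ‖d‖ ^ 2 with hμ
      have h2 : inner ℝ (x • a + y • b) e = (0 : ℝ) := by
        rw [inner_add_left, inner_smul_left, inner_smul_left, ha, hb]; simp
      have h3 : inner ℝ (μ • d) e = μ := by
        rw [inner_smul_left, hd, inner_add_left, hwc, real_inner_self_eq_norm_sq, he]; simp
      rw [h1, h3] at h2
      rw [h2, zero_smul] at h1
      exact LinearIndependent.pair_iff.1 hab x y h1
    rw [affineIndependent_iff_linearIndependent_vsub ℝ _ (0 : Fin 3)]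
    have hli : LinearIndependent ℝ ![Pr d (W • a + (W * σ1) • b), Pr d (W • a + (W * σ2) • b)] := by
      rw [LinearIndependent.pair_iff]
      intro x y hxy
      rw [← Pr_smul, ← Pr_smul, ← Pr_add] at hxy
      have e1 : x • (W • a + (W * σ1) • b) + y • (W • a + (W * σ2) • b) =
        ((x + y) * W) • a + ((x * σ1 + y * σ2) * W) • b := by
        simp only [smul_add, smul_smul, add_smul, add_mul]
        rw [show x * (W * σ1) = x * σ1 * W by ring, show y * (W * σ2) = y * σ2 * W by ring]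
        abel
      rw [e1] at hxy
      obtain ⟨h1, h2⟩ := key _ _ hxy
      have h3 := (mul_eq_zero.1 h1).resolve_right hW0.ne'
      have h4 := (mul_eq_zero.1 h2).resolve_right hW0.ne'
      have h5 : y * (σ2 - σ1) = 0 := by
        have : x = -y := by linarith
        rw [this] at h4; linarith
      have h6 := (mul_eq_zero.1 h5).resolve_right (by linarith)
      exact ⟨by linarith, h6⟩
    have hinj : Function.Injective (fun i : {x : Fin 3 // x ≠ 0} => (i.1.pred i.2 : Fin 2)) := by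
      intro i j hij
      apply Subtype.ext
      exact Fin.pred_inj.1 hij
    have hcomp := hli.comp _ hinj
    refine LinearIndependent.congr_fun' hcomp ?_
    rintro ⟨i, hi⟩
    fin_cases i
    · exact absurd rfl hi
    · show Pr d (v0 + (W • a + (W * σ1) • b)) - Pr d v0 = Pr d (W • a + (W * σ1) • b)
      rw [Pr_add, add_sub_cancel_left]
    · show Pr d (v0 + (W • a + (W * σ2) • b)) - Pr d v0 = Pr d (W • a + (W * σ2) • b)
      rw [Pr_add, add_sub_cancel_left]
  · -- covering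
    rintro x ⟨τ, hτ, ρ, hρ, s, hs, rfl⟩
    obtain ⟨Λ, M, hwd, hΛ, hM⟩ := hdisp τ hτ
    obtain ⟨u0, u1, u2, u3⟩ := planar (Rm := Rm) (ε := ε) (K' := K') (X := ρ + s * Λ)
      (Y := ρ * τ + s * M) (H := H) hc0 hc1 hτ.1 hτ.2 hh hh0 hC hL hs hΛ hM hρ.1
      (hρ.2.trans (hR τ hτ)) hε hK hK' rfl rfl hH
    obtain ⟨x, y, hx, hy, hxy, e1, e2⟩ := tri_coords (W := W) hW0 hσ u1 u2 u3
    rw [mem_triangle]
    refine ⟨x, y, hx, hy, hxy, ?_⟩
    have e3 : p₀ + ρ • (a + τ • b) + s • (e + w τ) =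
        (v0 + (x • (W • a + (W * σ1) • b) + y • (W • a + (W * σ2) • b))) + s • d := by
      have e4 : w τ = w c + (Λ • a + M • b) := by rw [← hwd]; abel
      have e5 : x • (W • a + (W * σ1) • b) + y • (W • a + (W * σ2) • b) =
        ((x + y) * W) • a + ((x * σ1 + y * σ2) * W) • b := by
        simp only [smul_add, smul_smul, add_smul, add_mul]
        rw [show x * (W * σ1) = x * σ1 * W by ring, show y * (W * σ2) = y * σ2 * W by ring]
        abel
      rw [e5, ← e1, ← e2, e4, hv0, hd]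
      simp only [smul_add, add_smul, mul_smul]
      abel
    have f1 : Pr d (v0 + (W • a + (W * σ1) • b)) - Pr d v0 = Pr d (W • a + (W * σ1) • b) := by
      rw [Pr_add, add_sub_cancel_left]
    have f2 : Pr d (v0 + (W • a + (W * σ2) • b)) - Pr d v0 = Pr d (W • a + (W * σ2) • b) := by
      rw [Pr_add, add_sub_cancel_left]
    rw [f1, f2, e3, Pr_add d _ (s • d), Pr_smul d d s, Pr_self hd0, smul_zero, add_zero,
      Pr_add d v0, Pr_add d (x • _), Pr_smul d _ x, Pr_smul d _ y]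
  · -- area
    rw [area_Pr he ha hb hab hwc]
    congr 1
    have e1 : W * (W * σ2) - W * (W * σ1) = W ^ 2 * ((1 + 2 * ε) * h) := by
      rw [← hσd]; ring
    rw [e1, abs_of_nonneg (by positivity)]
    rfl

include he ha hb hab in
theorem piece_lower {w : ℝ → E3} {R : ℝ → ℝ} {L t0 t1 c m : ℝ}
    (hL : 0 ≤ L) (h01 : t0 < t1) (hwc : inner ℝ (w c) e = 0) (hm : 0 ≤ m)
    (hR : ∀ τ ∈ Icc t0 t1, m ≤ R τ) :
    ENNReal.ofReal (m ^ 2 * (t1 - t0) * gf a b (w c)) ≤
      μHE[2] ((fun y => Pr (e + w c) y) '' Piece e a b p₀ w R L t0 t1) := by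
  have harea := area_Pr he ha hb hab hwc p₀ m (m * t0) m (m * t1)
  have e1 : m * (m * t1) - m * (m * t0) = m ^ 2 * (t1 - t0) := by ring
  rw [e1, abs_of_nonneg (mul_nonneg (by positivity) (by linarith))] at harea
  unfold gf
  rw [← harea]
  apply measure_mono
  intro z hz
  rw [mem_triangle] at hz
  obtain ⟨x, y, hx, hy, hxy, rfl⟩ := hz
  set d := e + w c with hd
  have hform : Pr d p₀ + (x • (Pr d (p₀ + (m • a + (m * t0) • b)) - Pr d p₀) +
      y • (Pr d (p₀ + (m • a + (m * t1) • b)) - Pr d p₀)) =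
      Pr d (p₀ + (((x + y) * m) • a + ((x * t0 + y * t1) * m) • b)) := by
    rw [Pr_add d p₀ (m • a + (m * t0) • b), Pr_add d p₀ (m • a + (m * t1) • b),
      add_sub_cancel_left, add_sub_cancel_left, ← Pr_smul, ← Pr_smul, ← Pr_add, ← Pr_add]
    congr 2
    simp only [smul_add, smul_smul, add_smul, add_mul]
    rw [show x * (m * t0) = x * t0 * m by ring, show y * (m * t1) = y * t1 * m by ring]
    abel
  rw [hform]
  rcases eq_or_lt_of_le (add_nonneg hx hy) with h0 | h0
  · have hx0 : x = 0 := by linarith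
    have hy0 : y = 0 := by linarith
    refine ⟨_, ⟨t0, ⟨le_refl _, h01.le⟩, 0, ⟨le_refl _, hm.trans (hR t0 ⟨le_refl _, h01.le⟩)⟩, 0,
      by simpa using hL, rfl⟩, ?_⟩
    simp [hx0, hy0]
  · set τ := (x * t0 + y * t1) / (x + y) with hτ
    have hτ0 : t0 ≤ τ := by
      rw [hτ, le_div_iff₀ h0]; nlinarith
    have hτ1 : τ ≤ t1 := by
      rw [hτ, div_le_iff₀ h0]; nlinarith
    refine ⟨_, ⟨τ, ⟨hτ0, hτ1⟩, (x + y) * m, ⟨by positivity, ?_⟩, 0, by simpa using hL, rfl⟩, ?_⟩
    · refine le_trans ?_ (hR τ ⟨hτ0, hτ1⟩)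
      nlinarith
    · simp only
      congr 1
      rw [zero_smul, add_zero, smul_add, smul_smul]
      congr 3
      rw [hτ]; field_simp

end

end Crest.Agent.Row211.Sweep
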