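import Crest.Agent.Row211.Sweep

/-! helper27: summation part of S0328. -/

set_option autoImplicit false

open MeasureTheory Set
open scoped ENNReal

namespace Crest.Agent.Row211.Sweep

theorem mono_mem {N : ℕ} {t : Fin (N + 1) → ℝ} {α β : ℝ} (ht : StrictMono t) (h0 : t 0 = α)
    (hN : t (Fin.last N) = β) (j : Fin (N + 1)) : t j ∈ Icc α β := by
  rw [← h0, ← hN]
  exact ⟨ht.monotone (Fin.zero_le j), ht.monotone (Fin.le_last j)⟩

theorem sum_pieces {N : ℕ} {t : Fin (N + 1) → ℝ} {α β : ℝ} (ht : StrictMono t) (h0 : t 0 = α)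
    (hN : t (Fin.last N) = β) {f : ℝ → ℝ} (hf : ContinuousOn f (Icc α β)) :
    ∑ i : Fin N, ∫ τ in (t i.castSucc)..(t i.succ), f τ = ∫ τ in α..β, f τ := by
  set t' : ℕ → ℝ := fun k => if h : k < N + 1 then t ⟨k, h⟩ else β with ht'
  have e1 : ∀ k (hk : k < N + 1), t' k = t ⟨k, hk⟩ := fun k hk => by simp only [ht']; rw [dif_pos hk]
  have hint : ∀ k < N, IntervalIntegrable f volume (t' k) (t' (k + 1)) := by
    intro k hk
    rw [e1 k (by omega), e1 (k + 1) (by omega)]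
    apply ContinuousOn.intervalIntegrable
    apply hf.mono
    intro x hx
    rw [uIcc, mem_Icc] at hx
    have m1 := mono_mem ht h0 hN ⟨k, by omega⟩
    have m2 := mono_mem ht h0 hN ⟨k + 1, by omega⟩
    exact ⟨(le_min m1.1 m2.1).trans hx.1, hx.2.trans (max_le m1.2 m2.2)⟩
  have h1 := intervalIntegral.sum_integral_adjacent_intervals hint
  rw [Finset.sum_range] at h1
  have e2 : t' 0 = α := by rw [e1 0 (by omega), ← h0]; rfl
  have e3 : t' N = β := by rw [e1 N (by omega), ← hN]; rfl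
  rw [e2, e3] at h1
  rw [← h1]
  apply Finset.sum_congr rfl
  intro i _
  rw [e1 i (by omega), e1 (i + 1) (by omega)]
  rfl

theorem sum_lengths {N : ℕ} {t : Fin (N + 1) → ℝ} {α β : ℝ} (ht : StrictMono t) (h0 : t 0 = α)
    (hN : t (Fin.last N) = β) : ∑ i : Fin N, (t i.succ - t i.castSucc) = β - α := by
  have h := sum_pieces ht h0 hN (f := fun _ => 1) continuousOn_const
  simpa using h

theorem exists_piece {N : ℕ} {t : Fin (N + 1) → ℝ} {α β : ℝ} (hαβ : α < β) (h0 : t 0 = α)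
    (hN : t (Fin.last N) = β) {τ : ℝ} (hτ : τ ∈ Icc α β) :
    ∃ i : Fin N, τ ∈ Icc (t i.castSucc) (t i.succ) := by
  by_contra hcon
  push Not at hcon
  have key : ∀ j : Fin (N + 1), t j ≤ τ ∧ (0 < j → t j < τ) := by
    intro j
    induction j using Fin.induction with
    | zero => exact ⟨by rw [h0]; exact hτ.1, fun h => absurd h (lt_irrefl _)⟩
    | succ i ih =>
      have h1 := hcon i
      rw [mem_Icc, not_and, not_le] at h1
      have h2 := h1 ih.1
      exact ⟨h2.le, fun _ => h2⟩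
  have hNpos : 0 < Fin.last N := by
    rw [Fin.pos_iff_ne_zero]
    intro h
    rw [h, h0] at hN
    exact hαβ.ne hN
  have h3 := (key (Fin.last N)).2 hNpos
  rw [hN] at h3
  exact absurd h3 (not_lt.2 hτ.2)

theorem sum_est {N : ℕ} {t : Fin (N + 1) → ℝ} {α β ρ η : ℝ} (ht : StrictMono t) (h0 : t 0 = α)
    (hN : t (Fin.last N) = β) {f : ℝ → ℝ} (hf : ContinuousOn f (Icc α β)) {x : Fin N → ℝ}
    (hx : ∀ i, |x i - ∫ τ in (t i.castSucc)..(t i.succ), f τ| ≤ ρ * (t i.succ - t i.castSucc))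
    (hρ : ρ * (β - α) ≤ η) : |(∑ i, x i) - ∫ τ in α..β, f τ| ≤ η := by
  rw [← sum_pieces ht h0 hN hf, ← Finset.sum_sub_distrib]
  refine (Finset.abs_sum_le_sum_abs _ _).trans ((Finset.sum_le_sum fun i _ => hx i).trans ?_)
  rw [← Finset.mul_sum, sum_lengths ht h0 hN]
  exact hρ

/-- scalar estimates for one piece. -/
theorem scalar_est {κ B ε θ ρ Rc g θ' : ℝ} (hκ : 0 ≤ κ) (hRc : 0 ≤ Rc) (hRcB : Rc ≤ B)
    (hg0 : 0 ≤ g) (hg : g ≤ κ / 2) (hε0 : 0 < ε) (hε1 : ε ≤ 1 / 2)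
    (hε2 : 4 * (κ + 1) * (B ^ 2 + 1) * ε ≤ ρ) (hθ0 : 0 ≤ θ) (hθ1 : θ ≤ 1)
    (hθ2 : 4 * (κ + 1) * (2 * B + 1) * θ ≤ ρ) (hθ'0 : 0 ≤ θ') (hθ' : θ' ≤ θ) :
    |(Rc + θ') ^ 2 * (1 + 2 * ε) * g - Rc ^ 2 * g| ≤ ρ / 2 ∧
      |(max (Rc - θ') 0) ^ 2 * g - Rc ^ 2 * g| ≤ ρ / 2 := by
  have hB : 0 ≤ B := hRc.trans hRcB
  constructor
  · rw [← sub_mul, abs_mul, abs_of_nonneg hg0]
    have h1 : 0 ≤ (Rc + θ') ^ 2 * (1 + 2 * ε) - Rc ^ 2 := by
      have : Rc ^ 2 ≤ (Rc + θ') ^ 2 := pow_le_pow_left₀ hRc (by linarith) 2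
      nlinarith [sq_nonneg (Rc + θ')]
    rw [abs_of_nonneg h1]
    have h2 : (Rc + θ') ^ 2 * (1 + 2 * ε) - Rc ^ 2 ≤ 2 * ε * B ^ 2 + 2 * ((2 * B + 1) * θ) := by
      have e1 : (Rc + θ') ^ 2 * (1 + 2 * ε) - Rc ^ 2 =
        2 * ε * Rc ^ 2 + (1 + 2 * ε) * (2 * Rc * θ' + θ' ^ 2) := by ring
      rw [e1]
      have a1 : Rc ^ 2 ≤ B ^ 2 := pow_le_pow_left₀ hRc hRcB 2
      have a2 : 2 * ε * Rc ^ 2 ≤ 2 * ε * B ^ 2 := by
        apply mul_le_mul_of_nonneg_left a1 (by positivity)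
      have a3 : 2 * Rc * θ' + θ' ^ 2 ≤ (2 * B + 1) * θ := by
        have b1 : Rc * θ' ≤ B * θ := mul_le_mul hRcB hθ' hθ'0 hB
        have b2 : θ' * θ' ≤ 1 * θ := mul_le_mul (hθ'.trans hθ1) hθ' hθ'0 (by norm_num)
        nlinarith
      have a4 : (1 + 2 * ε) * (2 * Rc * θ' + θ' ^ 2) ≤ 2 * ((2 * B + 1) * θ) :=
        mul_le_mul (by linarith) a3 (by positivity) (by norm_num)
      linarith
    calc ((Rc + θ') ^ 2 * (1 + 2 * ε) - Rc ^ 2) * g
        ≤ (2 * ε * B ^ 2 + 2 * ((2 * B + 1) * θ)) * (κ / 2) :=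
          mul_le_mul h2 hg hg0 (by positivity)
      _ ≤ ρ / 2 := by
          have c1 : κ * B ^ 2 * ε ≤ (κ + 1) * (B ^ 2 + 1) * ε := by
            apply mul_le_mul_of_nonneg_right _ hε0.le
            apply mul_le_mul (by linarith) (by linarith) (by positivity) (by linarith)
          have c2 : κ * (2 * B + 1) * θ ≤ (κ + 1) * (2 * B + 1) * θ := by
            apply mul_le_mul_of_nonneg_right _ hθ0
            apply mul_le_mul_of_nonneg_right (by linarith) (by linarith)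
          have e2 : (2 * ε * B ^ 2 + 2 * ((2 * B + 1) * θ)) * (κ / 2) =
            κ * B ^ 2 * ε + κ * (2 * B + 1) * θ := by ring
          rw [e2]
          linarith
  · rw [← sub_mul, abs_mul, abs_of_nonneg hg0]
    have h1 : |max (Rc - θ') 0 ^ 2 - Rc ^ 2| ≤ 2 * B * θ := by
      rcases le_total (Rc - θ') 0 with h | h
      · rw [max_eq_right h]
        have : Rc ^ 2 ≤ 2 * B * θ := by nlinarith
        rw [abs_le]
        constructor <;> nlinarith
      · rw [max_eq_left h]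
        have b1 : Rc * θ' ≤ B * θ := mul_le_mul hRcB hθ' hθ'0 hB
        rw [abs_le]
        constructor
        · nlinarith
        · nlinarith [mul_nonneg hB hθ0]
    calc |max (Rc - θ') 0 ^ 2 - Rc ^ 2| * g ≤ (2 * B * θ) * (κ / 2) :=
          mul_le_mul h1 hg hg0 (by positivity)
      _ ≤ ρ / 2 := by
          have c2 : κ * (2 * B) * θ ≤ (κ + 1) * (2 * B + 1) * θ := by
            apply mul_le_mul_of_nonneg_right _ hθ0
            apply mul_le_mul (by linarith) (by linarith) (by positivity) (by linarith)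
          have e2 : (2 * B * θ) * (κ / 2) = (κ * (2 * B) * θ) / 2 := by ring
          rw [e2]
          have : 0 ≤ (κ + 1) * (2 * B + 1) * θ := by positivity
          linarith

end Crest.Agent.Row211.Sweep
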