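import Crest.Agent.Row211.Cover2
import Crest.Agent.Row211.MinProj
import Crest.Agent.Row211.Plane

set_option autoImplicit false

open MeasureTheory Module
open scoped ENNReal Pointwise

namespace Crest.Agent.Row211

lemma K0_bounded : Bornology.IsBounded K0 := by
  have : ({!₂[1, 0, 0], !₂[-1, 0, 0], !₂[0, 1, Real.sqrt 2], !₂[0, -1, Real.sqrt 2]} : Set E3).Finite := by simp
  exact (this.isCompact_convexHull ℝ).isBounded

/-- a regular tetrahedron is a similar copy of the standard one -/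
lemma exists_similarity (w : Fin 4 → E3) (ℓ : ℝ) (hℓ : 0 < ℓ) (hw : ∀ i j, i ≠ j → dist (w i) (w j) = ℓ) :
    ∃ (c0 : E3) (φ : E3 ≃ₗᵢ[ℝ] E3), convexHull ℝ (Set.range w) = (fun x => c0 + (ℓ/2) • φ x) '' K0 := by
  obtain ⟨a, ha⟩ : ∃ a, a = w 1 - w 0 := ⟨_, rfl⟩
  obtain ⟨b, hb⟩ : ∃ b, b = w 2 - w 0 := ⟨_, rfl⟩
  obtain ⟨c, hc⟩ : ∃ c, c = w 3 - w 0 := ⟨_, rfl⟩
  have na : ‖a‖ ^ 2 = ℓ ^ 2 := by rw [ha, ← dist_eq_norm, hw 1 0 (by decide)]
  have nb : ‖b‖ ^ 2 = ℓ ^ 2 := by rw [hb, ← dist_eq_norm, hw 2 0 (by decide)]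
  have nc : ‖c‖ ^ 2 = ℓ ^ 2 := by rw [hc, ← dist_eq_norm, hw 3 0 (by decide)]
  have nab : ‖a - b‖ ^ 2 = ℓ ^ 2 := by
    rw [ha, hb, sub_sub_sub_cancel_right, ← dist_eq_norm, hw 1 2 (by decide)]
  have nac : ‖a - c‖ ^ 2 = ℓ ^ 2 := by
    rw [ha, hc, sub_sub_sub_cancel_right, ← dist_eq_norm, hw 1 3 (by decide)]
  have nbc : ‖b - c‖ ^ 2 = ℓ ^ 2 := by
    rw [hb, hc, sub_sub_sub_cancel_right, ← dist_eq_norm, hw 2 3 (by decide)]
  rw [norm_sub_sq_real] at nab nac nbc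
  have iab : inner ℝ a b = ℓ ^ 2 / 2 := by linarith
  have iac : inner ℝ a c = ℓ ^ 2 / 2 := by linarith
  have ibc : inner ℝ b c = ℓ ^ 2 / 2 := by linarith
  have iba : inner ℝ b a = ℓ ^ 2 / 2 := by rw [real_inner_comm]; exact iab
  have ica : inner ℝ c a = ℓ ^ 2 / 2 := by rw [real_inner_comm]; exact iac
  have icb : inner ℝ c b = ℓ ^ 2 / 2 := by rw [real_inner_comm]; exact ibc
  have iaa : inner ℝ a a = ℓ ^ 2 := by rw [real_inner_self_eq_norm_sq]; exact na
  have ibb : inner ℝ b b = ℓ ^ 2 := by rw [real_inner_self_eq_norm_sq]; exact nb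
  have icc : inner ℝ c c = ℓ ^ 2 := by rw [real_inner_self_eq_norm_sq]; exact nc
  have hs2 : Real.sqrt 2 ≠ 0 := by positivity
  have hsq : Real.sqrt 2 ^ 2 = 2 := Real.sq_sqrt (by norm_num)
  have hℓ0 : ℓ ≠ 0 := hℓ.ne'
  let v : Fin 3 → E3 := ![-(ℓ⁻¹) • a, ℓ⁻¹ • (b - c), (Real.sqrt 2 * ℓ)⁻¹ • (b + c - a)]
  have hv : Orthonormal ℝ v := by
    rw [orthonormal_iff_ite]
    have v0 : v 0 = -(ℓ⁻¹) • a := rfl
    have v1 : v 1 = ℓ⁻¹ • (b - c) := rfl
    have v2 : v 2 = (Real.sqrt 2 * ℓ)⁻¹ • (b + c - a) := rfl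
    have k00 : inner ℝ (v 0) (v 0) = 1 := by
      rw [v0, inner_smul_left, inner_smul_right, iaa]; simp; field_simp
    have k01 : inner ℝ (v 0) (v 1) = 0 := by
      rw [v0, v1, inner_smul_left, inner_smul_right, inner_sub_right, iab, iac]; simp
    have k02 : inner ℝ (v 0) (v 2) = 0 := by
      rw [v0, v2, inner_smul_left, inner_smul_right, inner_sub_right, inner_add_right, iab, iac, iaa]; simp
    have k11 : inner ℝ (v 1) (v 1) = 1 := by
      rw [v1, inner_smul_left, inner_smul_right, inner_sub_right, inner_sub_left, inner_sub_left, ibb, icc, ibc, icb]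
      simp; field_simp; norm_num
    have k12 : inner ℝ (v 1) (v 2) = 0 := by
      rw [v1, v2, inner_smul_left, inner_smul_right, inner_sub_right, inner_add_right, inner_sub_left,
        inner_sub_left, inner_sub_left, ibb, icc, ibc, icb, iba, ica]
      simp
    have k22 : inner ℝ (v 2) (v 2) = 1 := by
      rw [v2, inner_smul_left, inner_smul_right, inner_sub_right, inner_add_right, inner_sub_left,
        inner_sub_left, inner_sub_left, inner_add_left, inner_add_left, inner_add_left, ibb, icc, ibc, icb,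
        iba, ica, iab, iac, iaa]
      simp; field_simp; rw [hsq]; norm_num
    have k10 : inner ℝ (v 1) (v 0) = 0 := by rw [real_inner_comm]; exact k01
    have k20 : inner ℝ (v 2) (v 0) = 0 := by rw [real_inner_comm]; exact k02
    have k21 : inner ℝ (v 2) (v 1) = 0 := by rw [real_inner_comm]; exact k12
    intro i j
    fin_cases i <;> fin_cases j
    · exact k00
    · exact k01
    · exact k02
    · exact k10
    · exact k11
    · exact k12
    · exact k20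
    · exact k21
    · exact k22
  let B := basisOfOrthonormalOfCardEqFinrank hv (by simp)
  have hB : (B : Fin 3 → E3) = v := coe_basisOfOrthonormalOfCardEqFinrank hv _
  let OB : OrthonormalBasis (Fin 3) ℝ E3 := B.toOrthonormalBasis (by rw [hB]; exact hv)
  have hOB : ∀ i, OB i = v i := by
    intro i
    rw [Basis.coe_toOrthonormalBasis, hB]
  refine ⟨(1/2 : ℝ) • (w 0 + w 1), OB.repr.symm, ?_⟩
  have hφ : ∀ x : E3, OB.repr.symm x = x 0 • v 0 + x 1 • v 1 + x 2 • v 2 := by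
    intro x
    have h := OB.sum_repr (OB.repr.symm x)
    rw [Fin.sum_univ_three, LinearIsometryEquiv.apply_symm_apply, hOB, hOB, hOB] at h
    exact h.symm
  have hS : ∀ s : Set E3, (fun x => (1/2 : ℝ) • (w 0 + w 1) + (ℓ/2) • OB.repr.symm x) '' convexHull ℝ s =
      convexHull ℝ ((fun x => (1/2 : ℝ) • (w 0 + w 1) + (ℓ/2) • OB.repr.symm x) '' s) := by
    intro s
    let L : E3 →ᵃ[ℝ] E3 := ((ℓ/2) • OB.repr.symm.toLinearEquiv.toLinearMap).toAffineMap + AffineMap.const ℝ E3 ((1/2 : ℝ) • (w 0 + w 1))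
    have hL : (L : E3 → E3) = fun x => (1/2 : ℝ) • (w 0 + w 1) + (ℓ/2) • OB.repr.symm x := by
      funext x
      change (ℓ/2) • OB.repr.symm x + (1/2 : ℝ) • (w 0 + w 1) = _
      rw [add_comm]
    rw [← hL]
    exact L.image_convexHull s
  rw [K0, hS]
  congr 1
  have w1 : w 1 = w 0 + a := by rw [ha]; abel
  have w2 : w 2 = w 0 + b := by rw [hb]; abel
  have w3 : w 3 = w 0 + c := by rw [hc]; abel
  have v0 : v 0 = -(ℓ⁻¹) • a := rfl
  have v1 : v 1 = ℓ⁻¹ • (b - c) := rfl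
  have v2 : v 2 = (Real.sqrt 2 * ℓ)⁻¹ • (b + c - a) := rfl
  have h1 : ℓ / 2 * ℓ⁻¹ = 1/2 := by field_simp
  have h2 : ℓ / 2 * (Real.sqrt 2 * (Real.sqrt 2 * ℓ)⁻¹) = 1/2 := by field_simp
  have gen : ∀ x y z : ℝ, (1/2 : ℝ) • (w 0 + w 1) + (ℓ/2) • OB.repr.symm !₂[x, y, Real.sqrt 2 * z] =
      w 0 + ((1/2) * (1 - x - z)) • a + ((1/2) * (y + z)) • b + ((1/2) * (z - y)) • c := by
    intro x y z
    have hx : (!₂[x, y, Real.sqrt 2 * z] : E3) 0 = x := rfl
    have hy : (!₂[x, y, Real.sqrt 2 * z] : E3) 1 = y := rfl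
    have hz : (!₂[x, y, Real.sqrt 2 * z] : E3) 2 = Real.sqrt 2 * z := rfl
    have k1 : ℓ / 2 * x * -ℓ⁻¹ = -x/2 := by field_simp
    have k2 : ℓ / 2 * y * ℓ⁻¹ = y/2 := by field_simp
    have k3 : ℓ / 2 * (Real.sqrt 2 * z) * (Real.sqrt 2 * ℓ)⁻¹ = z/2 := by field_simp
    have e : ∀ X Y Z : E3, (ℓ/2) • (x • (-(ℓ⁻¹) • X) + y • (ℓ⁻¹ • Y) + (Real.sqrt 2 * z) • ((Real.sqrt 2 * ℓ)⁻¹ • Z)) =
        (-x/2) • X + (y/2) • Y + (z/2) • Z := by
      intro X Y Z
      rw [smul_add, smul_add, smul_smul, smul_smul, smul_smul, smul_smul, smul_smul, smul_smul, k1, k2, k3]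
    rw [hφ, hx, hy, hz, v0, v1, v2, w1, e]
    module
  have e0 : (1/2 : ℝ) • (w 0 + w 1) + (ℓ/2) • OB.repr.symm !₂[1, 0, 0] = w 0 := by
    have := gen 1 0 0
    simpa using this
  have e1 : (1/2 : ℝ) • (w 0 + w 1) + (ℓ/2) • OB.repr.symm !₂[-1, 0, 0] = w 1 := by
    have := gen (-1) 0 0
    rw [mul_zero] at this
    rw [this, w1]; module
  have e2 : (1/2 : ℝ) • (w 0 + w 1) + (ℓ/2) • OB.repr.symm !₂[0, 1, Real.sqrt 2] = w 2 := by
    have := gen 0 1 1
    rw [mul_one] at this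
    rw [this, w2]; module
  have e3 : (1/2 : ℝ) • (w 0 + w 1) + (ℓ/2) • OB.repr.symm !₂[0, -1, Real.sqrt 2] = w 3 := by
    have := gen 0 (-1) 1
    rw [mul_one] at this
    rw [this, w3]; module
  simp only [Set.image_insert_eq, Set.image_singleton, e0, e1, e2, e3]
  ext x
  simp only [Set.mem_range, Set.mem_insert_iff, Set.mem_singleton_iff, Fin.exists_fin_succ]
  simp
  tauto

lemma scale_measure (c : E3) (φ : E3 ≃ₗᵢ[ℝ] E3) {l : ℝ} (hl : 0 < l) (S : Set E3) :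
    μHE[2] ((fun y => c + l • φ y) '' S) = ENNReal.ofReal (l ^ 2) * μHE[2] S := by
  have h1 : (fun y => c + l • φ y) '' S = (fun y => c + y) '' ((fun y => l • y) '' (φ '' S)) := by
    rw [Set.image_image, Set.image_image]
  have h2 : (fun y : E3 => l • y) '' (φ '' S) = l • (φ '' S) := rfl
  rw [h1, (isometry_add_left c).euclideanHausdorffMeasure_image, h2,
    MeasureTheory.Measure.euclideanHausdorffMeasure_smul₀ 2 hl.ne', φ.isometry.euclideanHausdorffMeasure_image]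
  rw [ENNReal.smul_def, smul_eq_mul]
  congr 1
  rw [ENNReal.ofReal_eq_coe_nnreal (by positivity)]
  congr 1
  ext
  simp [abs_of_pos hl]

lemma proj_sim (c0 : E3) (φ : E3 ≃ₗᵢ[ℝ] E3) (l : ℝ) (v x : E3) :
    proj v (c0 + l • φ x) = proj v c0 + l • φ (proj (φ.symm v) x) := by
  rw [proj_add, proj_smul]
  congr 2
  simp only [proj, map_sub, map_smul, LinearIsometryEquiv.apply_symm_apply]
  congr 2
  rw [← φ.inner_map_map x, LinearIsometryEquiv.apply_symm_apply]

theorem min_proj_sim (c0 : E3) (φ : E3 ≃ₗᵢ[ℝ] E3) {l : ℝ} (hl : 0 < l) {v : E3} (hv : ‖v‖ = 1) :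
    l ^ 2 * Real.sqrt 2 ≤ (μHE[2] ((fun y => proj v y) '' ((fun x => c0 + l • φ x) '' K0))).toReal := by
  have h1 : (fun y => proj v y) '' ((fun x => c0 + l • φ x) '' K0) =
      (fun y => proj v c0 + l • φ y) '' ((fun y => proj (φ.symm v) y) '' K0) := by
    rw [Set.image_image, Set.image_image]
    simp only [proj_sim]
  have hv' : ‖φ.symm v‖ = 1 := by rw [LinearIsometryEquiv.norm_map, hv]
  rw [h1, scale_measure _ _ hl, ENNReal.toReal_mul, ENNReal.toReal_ofReal (by positivity)]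
  apply mul_le_mul_of_nonneg_left _ (by positivity)
  exact (ENNReal.ofReal_le_iff_le_toReal (proj_image_finite hv' K0_bounded).ne).1 (min_proj hv')

theorem transport (c0 : E3) (φ : E3 ≃ₗᵢ[ℝ] E3) {l : ℝ} (hl : 0 < l) :
    ∃ (u p q r : II → E3), (∀ i, ‖u i‖ = 1) ∧
      (∀ i, inner ℝ (p i) (u i) = 0 ∧ inner ℝ (q i) (u i) = 0 ∧ inner ℝ (r i) (u i) = 0) ∧
      (fun x => c0 + l • φ x) '' K0 ⊆ ⋃ i, {x : E3 | ∃ b ∈ convexHull ℝ {p i, q i, r i}, ∃ t : ℝ, x = b + t • u i} ∧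
      ∑ i, (μHE[2] (convexHull ℝ ({p i, q i, r i} : Set E3))).toReal ≤ l ^ 2 * (Real.sqrt 2 * (1/2 - 1/40000)) := by
  let A : II → E3 → E3 := fun i y => proj (φ (uC i)) c0 + l • φ y
  have hu : ∀ i, ‖φ (uC i)‖ = 1 := fun i => by rw [LinearIsometryEquiv.norm_map, norm_uC]
  have hin : ∀ i, ∀ y : E3, inner ℝ y (uC i) = 0 → inner ℝ (A i y) (φ (uC i)) = 0 := by
    intro i y hy
    simp only [A]
    rw [inner_add_left, inner_proj (hu i), inner_smul_left, φ.inner_map_map, hy]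
    simp
  have hhull : ∀ i, convexHull ℝ ({A i (pC i), A i (qC i), A i (rC i)} : Set E3) = A i '' convexHull ℝ {pC i, qC i, rC i} := by
    intro i
    ext x
    constructor
    · intro hx
      rw [mem_triangle] at hx
      obtain ⟨s, t, hs, ht, hst, rfl⟩ := hx
      refine ⟨pC i + (s • (qC i - pC i) + t • (rC i - pC i)), (mem_triangle _ _ _ _).2 ⟨s, t, hs, ht, hst, rfl⟩, ?_⟩
      simp only [A, map_add, map_smul, map_sub, smul_add, smul_sub]
      module
    · rintro ⟨y, hy, rfl⟩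
      rw [mem_triangle] at hy
      obtain ⟨s, t, hs, ht, hst, rfl⟩ := hy
      rw [mem_triangle]
      refine ⟨s, t, hs, ht, hst, ?_⟩
      simp only [A, map_add, map_smul, map_sub, smul_add, smul_sub]
      module
  refine ⟨fun i => φ (uC i), fun i => A i (pC i), fun i => A i (qC i), fun i => A i (rC i), hu, ?_, ?_, ?_⟩
  · intro i
    exact ⟨hin i _ (inner_proj (norm_uC _) _), hin i _ (inner_proj (norm_uC _) _), hin i _ (inner_proj (norm_uC _) _)⟩
  · rintro _ ⟨y, hy, rfl⟩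
    have h := cover_C hy
    rw [Set.mem_iUnion] at h ⊢
    obtain ⟨i, b, hb, t, rfl⟩ := h
    refine ⟨i, A i b, ?_, inner ℝ c0 (φ (uC i)) + l * t, ?_⟩
    · rw [hhull]; exact ⟨b, hb, rfl⟩
    · simp only [A, proj, map_add, map_smul]
      module
  · have : ∀ i, (μHE[2] (convexHull ℝ ({A i (pC i), A i (qC i), A i (rC i)} : Set E3))).toReal =
        l ^ 2 * (μHE[2] (convexHull ℝ ({pC i, qC i, rC i} : Set E3))).toReal := by
      intro i
      rw [hhull, scale_measure _ _ hl, ENNReal.toReal_mul, ENNReal.toReal_ofReal (by positivity)]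
    simp only [this]
    rw [← Finset.mul_sum]
    exact mul_le_mul_of_nonneg_left total_area (by positivity)

end Crest.Agent.Row211
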